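import Vale.Agent.P210.R2.H755.Boch
import Vale.Agent.P210.R2.H265.Jet
import Vale.Agent.P210.R2.H973.Ricf

set_option linter.all false

open scoped Manifold ContDiff Topology Bundle
open Set Metric Filter Bundle IsManifold MeasureTheory Manifold

set_option maxSynthPendingDepth 3

noncomputable section

namespace Vale.Agent.P210.R2.H755

open Vale.Agent.P210.R2.H53 Vale.Agent.P210.R2.H973

section comp

variable {E : Type} [NormedAddCommGroup E] [NormedSpace ℝ E]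

theorem comp_deriv1 {φ : E → ℝ} {τ : E → E} {z : E} (hf : ContDiffAt ℝ ∞ φ (τ z))
    (hτ : ContDiffAt ℝ ∞ τ z) :
    fderiv ℝ (φ ∘ τ) z = (fderiv ℝ φ (τ z)).comp (fderiv ℝ τ z) :=
  fderiv_comp z (hf.differentiableAt (by simp)) (hτ.differentiableAt (by simp))

theorem comp_deriv2 {φ : E → ℝ} {τ : E → E} {z : E} (hf : ContDiffAt ℝ ∞ φ (τ z))
    (hτ : ContDiffAt ℝ ∞ τ z) (v w : E) :
    fderiv ℝ (fderiv ℝ (φ ∘ τ)) z v w =
      fderiv ℝ (fderiv ℝ φ) (τ z) (fderiv ℝ τ z v) (fderiv ℝ τ z w)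
        + fderiv ℝ φ (τ z) (fderiv ℝ (fderiv ℝ τ) z v w) := by
  have hτ1 : ContDiffAt ℝ ∞ (fderiv ℝ τ) z := hτ.fderiv_right (m := ∞) (by simp)
  have hf1 : ContDiffAt ℝ ∞ (fderiv ℝ φ) (τ z) := hf.fderiv_right (m := ∞) (by simp)
  have dτ : DifferentiableAt ℝ τ z := hτ.differentiableAt (by simp)
  have ev : ∀ {X Y : Type} [NormedAddCommGroup X] [NormedSpace ℝ X] [NormedAddCommGroup Y]
      [NormedSpace ℝ Y] {f : X → Y} {x : X},
      ContDiffAt ℝ ∞ f x → ∀ᶠ y in 𝓝 x, DifferentiableAt ℝ f y := by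
    intro X Y _ _ _ _ f x hf
    have h1 : ContDiffAt ℝ 1 f x := hf.of_le (by exact_mod_cast le_top)
    exact (h1.eventually (by simp)).mono fun y hy => hy.differentiableAt (by simp)
  have h1 : fderiv ℝ (φ ∘ τ) =ᶠ[𝓝 z] fun y => (fderiv ℝ φ (τ y)).comp (fderiv ℝ τ y) := by
    filter_upwards [ev hτ, dτ.continuousAt.eventually (ev hf)] with y h1 h2
    exact fderiv_comp y h2 h1
  have h2 : HasFDerivAt (fun y => fderiv ℝ φ (τ y))
      ((fderiv ℝ (fderiv ℝ φ) (τ z)).comp (fderiv ℝ τ z)) z :=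
    (hf1.differentiableAt (by simp)).hasFDerivAt.comp z dτ.hasFDerivAt
  have h3 : HasFDerivAt (fun y => (fderiv ℝ φ (τ y)).comp (fderiv ℝ τ y)) _ z :=
    h2.clm_comp (hτ1.differentiableAt (by simp)).hasFDerivAt
  rw [h1.fderiv_eq, h3.fderiv]
  simp
  ring

end comp

variable {E : Type} [NormedAddCommGroup E] [NormedSpace ℝ E] [FiniteDimensional ℝ E]
  {M : Type} [MetricSpace M] [ChartedSpace E M]
  [RiemannianBundle (fun x : M => TangentSpace 𝓘(ℝ, E) x)]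
  [IsManifold 𝓘(ℝ, E) ∞ M]
  [IsContMDiffRiemannianBundle 𝓘(ℝ, E) ∞ E (fun x : M => TangentSpace 𝓘(ℝ, E) x)]

omit [FiniteDimensional ℝ E] [RiemannianBundle (fun x : M => TangentSpace 𝓘(ℝ, E) x)]
  [IsContMDiffRiemannianBundle 𝓘(ℝ, E) ∞ E (fun x : M => TangentSpace 𝓘(ℝ, E) x)] in
/-- a smooth function in a chart -/
theorem contDiffOn_chart {e : OpenPartialHomeomorph M E} (he : e ∈ maximalAtlas 𝓘(ℝ, E) ∞ M)
    {u : M → ℝ} (hu : ContMDiff 𝓘(ℝ, E) 𝓘(ℝ, ℝ) ∞ u) : ContDiffOn ℝ ∞ (u ∘ e.symm) e.target :=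
  contMDiffOn_iff_contDiffOn.1 (hu.comp_contMDiffOn (contMDiffOn_symm_of_mem_maximalAtlas he))

theorem bij_transition {e e' : OpenPartialHomeomorph M E}
    (he : e ∈ maximalAtlas 𝓘(ℝ, E) ∞ M) (he' : e' ∈ maximalAtlas 𝓘(ℝ, E) ∞ M) {p : M}
    (hp : p ∈ e.source) (hp' : p ∈ e'.source) :
    Function.Bijective (fderiv ℝ (e' ∘ e.symm) (e p)) := by
  have hz : e p ∈ e.target := e.map_source hp
  have hinj : Function.Injective (fderiv ℝ (e' ∘ e.symm) (e p) : E →ₗ[ℝ] E) := by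
    rw [injective_iff_map_eq_zero]
    intro v hv
    by_contra hne
    have h1 := chartG_pos he hz v hne
    have h2 := chartG_change he he' hp hp' v v
    have h3 : fderiv ℝ (e' ∘ e.symm) (e p) v = 0 := hv
    rw [h3] at h2
    simp at h2
    linarith
  exact ⟨hinj, LinearMap.injective_iff_surjective.1 hinj⟩

section change

variable {e e' : OpenPartialHomeomorph M E} {p : M} {u v : M → ℝ}

omit [FiniteDimensional ℝ E] [RiemannianBundle (fun x : M => TangentSpace 𝓘(ℝ, E) x)]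
  [IsContMDiffRiemannianBundle 𝓘(ℝ, E) ∞ E (fun x : M => TangentSpace 𝓘(ℝ, E) x)] in
theorem chart_germ (u : M → ℝ) (hp : p ∈ e.source) (hp' : p ∈ e'.source) :
    u ∘ e.symm =ᶠ[𝓝 (e p)] (u ∘ e'.symm) ∘ (e' ∘ e.symm) := by
  have hzV : e p ∈ (e.symm ≫ₕ e').source := by simp [hp, hp']
  filter_upwards [(e.symm ≫ₕ e').open_source.mem_nhds hzV] with y hy
  have hy2 : e.symm y ∈ e'.source := by
    have := hy
    simp at this
    exact this.2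
  simp [e'.left_inv hy2]

theorem change_data (he : e ∈ maximalAtlas 𝓘(ℝ, E) ∞ M) (he' : e' ∈ maximalAtlas 𝓘(ℝ, E) ∞ M)
    (hp : p ∈ e.source) (hp' : p ∈ e'.source) (hu : ContMDiff 𝓘(ℝ, E) 𝓘(ℝ, ℝ) ∞ u) :
    (∀ w, fderiv ℝ (u ∘ e.symm) (e p) w =
      fderiv ℝ (u ∘ e'.symm) (e' p) (fderiv ℝ (e' ∘ e.symm) (e p) w)) ∧
    ∀ w w', hessG (chartG e) (u ∘ e.symm) (e p) w w' =
      hessG (chartG e') (u ∘ e'.symm) (e' p) (fderiv ℝ (e' ∘ e.symm) (e p) w)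
        (fderiv ℝ (e' ∘ e.symm) (e p) w') := by
  have hpt : (e' ∘ e.symm) (e p) = e' p := by simp [e.left_inv hp]
  have hz : e p ∈ e.target := e.map_source hp
  have hz' : e' p ∈ e'.target := e'.map_source hp'
  have hzV : e p ∈ (e.symm ≫ₕ e').source := by simp [hp, hp']
  have hτ : ContDiffAt ℝ ∞ (e' ∘ e.symm) (e p) :=
    (transition_real he he').contDiffAt ((e.symm ≫ₕ e').open_source.mem_nhds hzV)
  have hf : ContDiffAt ℝ ∞ (u ∘ e'.symm) ((e' ∘ e.symm) (e p)) := by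
    rw [hpt]
    exact (contDiffOn_chart he' hu).contDiffAt (e'.open_target.mem_nhds hz')
  have g := chart_germ (e := e) (e' := e') u hp hp'
  have d1 : ∀ w, fderiv ℝ (u ∘ e.symm) (e p) w =
      fderiv ℝ (u ∘ e'.symm) (e' p) (fderiv ℝ (e' ∘ e.symm) (e p) w) := by
    intro w
    rw [g.fderiv_eq, comp_deriv1 hf hτ, hpt]
    rfl
  refine ⟨d1, fun w w' => ?_⟩
  have hch := H265.chris_change he he' hz (by rw [e.left_inv hp]; exact hp') w w'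
  rw [e.left_inv hp] at hch
  rw [hessG_apply, hessG_apply, (fderiv_germ g).fderiv_eq, comp_deriv2 hf hτ, hpt, d1, hch,
    map_add]
  ring

/-- change of charts for gradients -/
theorem grad_change (he : e ∈ maximalAtlas 𝓘(ℝ, E) ∞ M) (he' : e' ∈ maximalAtlas 𝓘(ℝ, E) ∞ M)
    (hp : p ∈ e.source) (hp' : p ∈ e'.source) (hu : ContMDiff 𝓘(ℝ, E) 𝓘(ℝ, ℝ) ∞ u) :
    gradG (chartG e') (u ∘ e'.symm) (e' p) =
      fderiv ℝ (e' ∘ e.symm) (e p) (gradG (chartG e) (u ∘ e.symm) (e p)) := by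
  have hz : e p ∈ e.target := e.map_source hp
  have hz' : e' p ∈ e'.target := e'.map_source hp'
  refine G_inj (fun v hv => chartG_pos he' hz' v hv) fun y => ?_
  obtain ⟨w, rfl⟩ := (bij_transition he he' hp hp').2 y
  rw [grad_spec (localRiem_chartG he') hz', chartG_change he he' hp hp',
    grad_spec (localRiem_chartG he) hz]
  exact ((change_data he he' hp hp' hu).1 w).symm

/-- change of charts for the Hessian operator -/
theorem op_change (he : e ∈ maximalAtlas 𝓘(ℝ, E) ∞ M) (he' : e' ∈ maximalAtlas 𝓘(ℝ, E) ∞ M)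
    (hp : p ∈ e.source) (hp' : p ∈ e'.source) (hu : ContMDiff 𝓘(ℝ, E) 𝓘(ℝ, ℝ) ∞ u) :
    (fderiv ℝ (e' ∘ e.symm) (e p)).comp (opG (chartG e) (u ∘ e.symm) (e p)) =
      (opG (chartG e') (u ∘ e'.symm) (e' p)).comp (fderiv ℝ (e' ∘ e.symm) (e p)) := by
  have hz : e p ∈ e.target := e.map_source hp
  have hz' : e' p ∈ e'.target := e'.map_source hp'
  ext v
  refine G_inj (fun v hv => chartG_pos he' hz' v hv) fun y => ?_
  obtain ⟨w, rfl⟩ := (bij_transition he he' hp hp').2 y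
  simp only [ContinuousLinearMap.comp_apply]
  rw [op_spec (localRiem_chartG he') hz', chartG_change he he' hp hp',
    op_spec (localRiem_chartG he) hz]
  exact (change_data he he' hp hp' hu).2 v w

theorem gam_change (he : e ∈ maximalAtlas 𝓘(ℝ, E) ∞ M) (he' : e' ∈ maximalAtlas 𝓘(ℝ, E) ∞ M)
    (hp : p ∈ e.source) (hp' : p ∈ e'.source) (hu : ContMDiff 𝓘(ℝ, E) 𝓘(ℝ, ℝ) ∞ u)
    (hv : ContMDiff 𝓘(ℝ, E) 𝓘(ℝ, ℝ) ∞ v) :
    gamG (chartG e) (u ∘ e.symm) (v ∘ e.symm) (e p) =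
      gamG (chartG e') (u ∘ e'.symm) (v ∘ e'.symm) (e' p) := by
  rw [gamG_apply, gamG_apply, (change_data he he' hp hp' hu).1, grad_change he he' hp hp' hv]

theorem lap_change (he : e ∈ maximalAtlas 𝓘(ℝ, E) ∞ M) (he' : e' ∈ maximalAtlas 𝓘(ℝ, E) ∞ M)
    (hp : p ∈ e.source) (hp' : p ∈ e'.source) (hu : ContMDiff 𝓘(ℝ, E) 𝓘(ℝ, ℝ) ∞ u) :
    lapG (chartG e) (u ∘ e.symm) (e p) = lapG (chartG e') (u ∘ e'.symm) (e' p) :=
  tr_conj (bij_transition he he' hp hp') (op_change he he' hp hp' hu)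

theorem hs_change (he : e ∈ maximalAtlas 𝓘(ℝ, E) ∞ M) (he' : e' ∈ maximalAtlas 𝓘(ℝ, E) ∞ M)
    (hp : p ∈ e.source) (hp' : p ∈ e'.source) (hu : ContMDiff 𝓘(ℝ, E) 𝓘(ℝ, ℝ) ∞ u) (α : ℝ) :
    hsG (chartG e) α (u ∘ e.symm) (e p) = hsG (chartG e') α (u ∘ e'.symm) (e' p) :=
  tr_conj_sq (bij_transition he he' hp hp') _ (op_change he he' hp hp' hu)

end change

omit [RiemannianBundle (fun x : M => TangentSpace 𝓘(ℝ, E) x)]
  [IsContMDiffRiemannianBundle 𝓘(ℝ, E) ∞ E (fun x : M => TangentSpace 𝓘(ℝ, E) x)]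
  [FiniteDimensional ℝ E] [IsManifold 𝓘(ℝ, E) ∞ M] in
theorem mem_chartAt_atlas [IsManifold 𝓘(ℝ, E) ∞ M] (p : M) :
    chartAt E p ∈ maximalAtlas 𝓘(ℝ, E) ∞ M := chart_mem_maximalAtlas p

theorem Gam_chart {u v : M → ℝ} (hu : ContMDiff 𝓘(ℝ, E) 𝓘(ℝ, ℝ) ∞ u)
    (hv : ContMDiff 𝓘(ℝ, E) 𝓘(ℝ, ℝ) ∞ v) {e : OpenPartialHomeomorph M E}
    (he : e ∈ maximalAtlas 𝓘(ℝ, E) ∞ M) {p : M} (hp : p ∈ e.source) :
    Gam E u v p = gamG (chartG e) (u ∘ e.symm) (v ∘ e.symm) (e p) :=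
  gam_change (mem_chartAt_atlas p) he (mem_chart_source E p) hp hu hv

theorem Lap_chart {u : M → ℝ} (hu : ContMDiff 𝓘(ℝ, E) 𝓘(ℝ, ℝ) ∞ u)
    {e : OpenPartialHomeomorph M E}
    (he : e ∈ maximalAtlas 𝓘(ℝ, E) ∞ M) {p : M} (hp : p ∈ e.source) :
    Lap E u p = lapG (chartG e) (u ∘ e.symm) (e p) :=
  lap_change (mem_chartAt_atlas p) he (mem_chart_source E p) hp hu

theorem HS_chart {u : M → ℝ} (hu : ContMDiff 𝓘(ℝ, E) 𝓘(ℝ, ℝ) ∞ u)
    {e : OpenPartialHomeomorph M E}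
    (he : e ∈ maximalAtlas 𝓘(ℝ, E) ∞ M) {p : M} (hp : p ∈ e.source) (α : ℝ) :
    HS E α u p = hsG (chartG e) α (u ∘ e.symm) (e p) :=
  hs_change (mem_chartAt_atlas p) he (mem_chart_source E p) hp hu α

omit [FiniteDimensional ℝ E] [RiemannianBundle (fun x : M => TangentSpace 𝓘(ℝ, E) x)]
  [IsContMDiffRiemannianBundle 𝓘(ℝ, E) ∞ E (fun x : M => TangentSpace 𝓘(ℝ, E) x)] in
/-- smoothness from charts -/
theorem contMDiff_of_charts {f : M → ℝ} (h : ∀ e ∈ maximalAtlas 𝓘(ℝ, E) ∞ M,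
    ∃ g : E → ℝ, ContDiffOn ℝ ∞ g e.target ∧ ∀ p ∈ e.source, f p = g (e p)) :
    ContMDiff 𝓘(ℝ, E) 𝓘(ℝ, ℝ) ∞ f := by
  intro p
  obtain ⟨g, hg, hfg⟩ := h (chartAt E p) (mem_chartAt_atlas p)
  have h1 : ContMDiffOn 𝓘(ℝ, E) 𝓘(ℝ, ℝ) ∞ (g ∘ (chartAt E p)) (chartAt E p).source :=
    (contMDiffOn_iff_contDiffOn.2 hg).comp
      (contMDiffOn_of_mem_maximalAtlas (mem_chartAt_atlas p))
      (fun q hq => (chartAt E p).map_source hq)
  refine (h1.congr (fun q hq => hfg q hq)).contMDiffAt ?_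
  exact (chartAt E p).open_source.mem_nhds (mem_chart_source E p)

theorem contMDiff_Gam {u v : M → ℝ} (hu : ContMDiff 𝓘(ℝ, E) 𝓘(ℝ, ℝ) ∞ u)
    (hv : ContMDiff 𝓘(ℝ, E) 𝓘(ℝ, ℝ) ∞ v) : ContMDiff 𝓘(ℝ, E) 𝓘(ℝ, ℝ) ∞ (Gam E u v) :=
  contMDiff_of_charts fun e he => ⟨gamG (chartG e) (u ∘ e.symm) (v ∘ e.symm),
    contDiffOn_gamG (localRiem_chartG he) (contDiffOn_chart he hu) (contDiffOn_chart he hv),
    fun p hp => Gam_chart hu hv he hp⟩

theorem contMDiff_Lap {u : M → ℝ} (hu : ContMDiff 𝓘(ℝ, E) 𝓘(ℝ, ℝ) ∞ u) :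
    ContMDiff 𝓘(ℝ, E) 𝓘(ℝ, ℝ) ∞ (Lap E u) :=
  contMDiff_of_charts fun e he => ⟨lapG (chartG e) (u ∘ e.symm),
    contDiffOn_lapG (localRiem_chartG he) (contDiffOn_chart he hu),
    fun p hp => Lap_chart hu he hp⟩

theorem contMDiff_HS {u : M → ℝ} (hu : ContMDiff 𝓘(ℝ, E) 𝓘(ℝ, ℝ) ∞ u) (α : ℝ) :
    ContMDiff 𝓘(ℝ, E) 𝓘(ℝ, ℝ) ∞ (HS E α u) :=
  contMDiff_of_charts fun e he => ⟨hsG (chartG e) α (u ∘ e.symm),
    contDiffOn_hsG (localRiem_chartG he) (contDiffOn_chart he hu) α,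
    fun p hp => HS_chart hu he hp α⟩

end Vale.Agent.P210.R2.H755
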