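import Vale.Agent.P210.R2.H755.Mfd
import Vale.Agent.P210.R2.H53.RSpec

set_option linter.all false

open scoped Manifold ContDiff Topology Bundle
open Set Metric Filter Bundle IsManifold MeasureTheory Manifold

set_option maxSynthPendingDepth 3

noncomputable section

namespace Vale.Agent.P210.R2.H755

open Vale.Agent.P210.R2.H53 Vale.Agent.P210.R2.H973

variable {E : Type} [NormedAddCommGroup E] [NormedSpace ℝ E] [FiniteDimensional ℝ E]
  {M : Type} [MetricSpace M] [ChartedSpace E M]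
  [RiemannianBundle (fun x : M => TangentSpace 𝓘(ℝ, E) x)]
  [IsManifold 𝓘(ℝ, E) ∞ M]
  [IsContMDiffRiemannianBundle 𝓘(ℝ, E) ∞ E (fun x : M => TangentSpace 𝓘(ℝ, E) x)]

omit [FiniteDimensional ℝ E] [RiemannianBundle (fun x : M => TangentSpace 𝓘(ℝ, E) x)]
  [IsManifold 𝓘(ℝ, E) ∞ M]
  [IsContMDiffRiemannianBundle 𝓘(ℝ, E) ∞ E (fun x : M => TangentSpace 𝓘(ℝ, E) x)] in
theorem germ_chart {u v : M → ℝ} {e : OpenPartialHomeomorph M E} {p : M} (hp : p ∈ e.source)
    (h : u =ᶠ[𝓝 p] v) : u ∘ e.symm =ᶠ[𝓝 (e p)] v ∘ e.symm := by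
  have hc : ContinuousAt e.symm (e p) := e.continuousAt_symm (e.map_source hp)
  have h1 : Tendsto e.symm (𝓝 (e p)) (𝓝 p) := by
    have := hc.tendsto
    rwa [e.left_inv hp] at this
  exact h1.eventually h

omit [FiniteDimensional ℝ E] [RiemannianBundle (fun x : M => TangentSpace 𝓘(ℝ, E) x)]
  [IsManifold 𝓘(ℝ, E) ∞ M] [ChartedSpace E M] [NormedAddCommGroup E] [NormedSpace ℝ E]
  [IsContMDiffRiemannianBundle 𝓘(ℝ, E) ∞ E (fun x : M => TangentSpace 𝓘(ℝ, E) x)] in
theorem germ_zero {u : M → ℝ} {p : M} (hp : p ∉ tsupport u) : u =ᶠ[𝓝 p] fun _ => 0 := by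
  exact notMem_tsupport_iff_eventuallyEq.1 hp

theorem Gam_eq_zero {u v : M → ℝ} {p : M} (hp : p ∉ tsupport u) : Gam E u v p = 0 := by
  have h1 := germ_chart (e := chartAt E p) (mem_chart_source E p) (germ_zero hp)
  have h2 : fderiv ℝ (u ∘ (chartAt E p).symm) (chartAt E p p) = 0 := by
    rw [h1.fderiv_eq]
    exact (hasFDerivAt_const (0 : ℝ) (chartAt E p p)).fderiv
  rw [Gam, gamG_apply, h2]
  rfl

theorem Lap_eq_zero {u : M → ℝ} {p : M} (hp : p ∉ tsupport u) : Lap E u p = 0 := by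
  have h1 := germ_chart (e := chartAt E p) (mem_chart_source E p) (germ_zero hp)
  have h0 : fderiv ℝ ((fun _ : M => (0 : ℝ)) ∘ (chartAt E p).symm) = fun _ => 0 := by
    funext y
    exact (hasFDerivAt_const (0 : ℝ) y).fderiv
  have h2 : hessG (chartG (chartAt E p)) ((fun _ : M => (0 : ℝ)) ∘ (chartAt E p).symm)
      (chartAt E p p) = 0 := by
    ext v w
    rw [hessG_apply, h0]
    have : fderiv ℝ (fun _ : E => (0 : E →L[ℝ] ℝ)) (chartAt E p p) = 0 :=
      (hasFDerivAt_const (0 : E →L[ℝ] ℝ) (chartAt E p p)).fderiv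
    rw [this]
    simp
  rw [Lap, lapG_congr h1, lapG, opG, h2, ContinuousLinearMap.comp_zero]
  exact map_zero _

/-- a function built from smooth functions, in a chart -/
theorem comp_chart_eq {e : OpenPartialHomeomorph M E} {f : M → ℝ} {g : E → ℝ}
    (h : ∀ p ∈ e.source, f p = g (e p)) {z : E} (hz : z ∈ e.target) :
    f ∘ e.symm =ᶠ[𝓝 z] g := by
  filter_upwards [e.open_target.mem_nhds hz] with y hy
  rw [Function.comp_apply, h _ (e.map_target hy), e.right_inv hy]

theorem gamG_congr {G : E → E →L[ℝ] E →L[ℝ] ℝ} {z : E} {φ φ' ψ ψ' : E → ℝ}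
    (h : φ =ᶠ[𝓝 z] φ') (h' : ψ =ᶠ[𝓝 z] ψ') : gamG G φ ψ z = gamG G φ' ψ' z := by
  rw [gamG_apply, gamG_apply, h.fderiv_eq, gradG_congr h']

section items

variable {u v : M → ℝ}

theorem item6 (hu : ContMDiff 𝓘(ℝ, E) 𝓘(ℝ, ℝ) ∞ u) (α : ℝ) (p : M) :
    Gam E (fun q => Gam E u u q - α * u q) (fun q => Gam E u u q - α * u q) p ≤
      4 * HS E α u p * Gam E u u p := by
  have he := mem_chartAt_atlas (E := E) p
  set e := chartAt E p with hedef
  have hz : e p ∈ e.target := mem_chart_target E p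
  have h1 : (fun q => Gam E u u q - α * u q) ∘ e.symm =ᶠ[𝓝 (e p)] fun y =>
      gamG (chartG e) (u ∘ e.symm) (u ∘ e.symm) y - α * (u ∘ e.symm) y := by
    refine comp_chart_eq (fun q hq => ?_) hz
    rw [Gam_chart hu hu he hq, Function.comp_apply, e.left_inv hq]
  have h2 := gam_gam_le (localRiem_chartG he) hz (contDiffOn_chart he hu) α
  rw [Gam, ← hedef, gamG_congr h1 h1]
  exact h2

theorem item7 (hu : ContMDiff 𝓘(ℝ, E) 𝓘(ℝ, ℝ) ∞ u) {K : ℝ} (hK : RicGE E M (-K)) (p : M) :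
    HS E 0 u p + Gam E u (Lap E u) p - K * Gam E u u p ≤ (1 / 2) * Lap E (Gam E u u) p := by
  have he := mem_chartAt_atlas (E := E) p
  set e := chartAt E p with hedef
  have hz : e p ∈ e.target := mem_chart_target E p
  have hR := localRiem_chartG he
  have hφ := contDiffOn_chart he hu
  have h1 : (Gam E u u) ∘ e.symm =ᶠ[𝓝 (e p)] gamG (chartG e) (u ∘ e.symm) (u ∘ e.symm) :=
    comp_chart_eq (fun q hq => Gam_chart hu hu he hq) hz
  have h2 : (Lap E u) ∘ e.symm =ᶠ[𝓝 (e p)] lapG (chartG e) (u ∘ e.symm) :=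
    comp_chart_eq (fun q hq => Lap_chart hu he hq) hz
  have hB := bochner hR hz hφ
  have e1 : Lap E (Gam E u u) p = lapG (chartG e) (gamG (chartG e) (u ∘ e.symm) (u ∘ e.symm))
      (e p) := by
    rw [Lap, ← hedef, lapG_congr h1]
  have e2 : Gam E u (Lap E u) p = gamG (chartG e) (u ∘ e.symm) (lapG (chartG e) (u ∘ e.symm))
      (e p) := by
    rw [Gam, ← hedef, gamG_congr (EventuallyEq.refl _ _) h2]
  have e3 : HS E 0 u p = tr ((opG (chartG e) (u ∘ e.symm) (e p)).comp
      (opG (chartG e) (u ∘ e.symm) (e p))) := by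
    rw [HS, ← hedef, hsG_zero]
  have e4 : Gam E u u p = gamG (chartG e) (u ∘ e.symm) (u ∘ e.symm) (e p) := rfl
  obtain ⟨Γ, hΓ, hsec⟩ := hK e he (e p) hz
  obtain ⟨b, hb⟩ := exists_onbG hR hz
  have h3 := hsec b hb (gradG (chartG e) (u ∘ e.symm) (e p))
  have h4 : ∑ i, sectNum e (e p) Γ (b i) (gradG (chartG e) (u ∘ e.symm) (e p)) =
      ric (chartG e) (e p) (gradG (chartG e) (u ∘ e.symm) (e p)) := by
    rw [← ric_eq hb]
    exact Finset.sum_congr rfl fun i _ => sectNum_eq he hz hΓ _ _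
  rw [h4] at h3
  have h5 : chartMetric e (e p) (gradG (chartG e) (u ∘ e.symm) (e p))
      (gradG (chartG e) (u ∘ e.symm) (e p)) =
      gamG (chartG e) (u ∘ e.symm) (u ∘ e.symm) (e p) := by
    rw [gamG_eq hR hz]
    rfl
  rw [h5] at h3
  rw [e1, e2, e3, e4, hB]
  linarith only [h3]

end items

theorem calc_holds : Stmt.CALC := by
  intro E _ _ _ _ _ M _ _ _ _ _ _ _ _ _ hn
  refine ⟨?_, ?_, ?_, ?_, ?_, ?_, ?_, ?_, ?_⟩
  · intro u v hu hv
    exact ⟨contMDiff_Gam hu.1 hv.1, hu.2.mono' fun p hp => by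
      by_contra h
      exact hp (Gam_eq_zero h)⟩
  · intro u hu
    exact ⟨contMDiff_Lap hu.1, hu.2.mono' fun p hp => by
      by_contra h
      exact hp (Lap_eq_zero h)⟩
  · intro α u hu
    refine ⟨(contMDiff_HS hu.1 α).continuous, fun p => ?_⟩
    exact hsG_nonneg (localRiem_chartG (mem_chartAt_atlas p)) (mem_chart_target E p)
      (contDiffOn_chart (mem_chartAt_atlas p) hu.1) α
  · intro α u p hu
    exact hsG_shift α _ _
  · intro α u p hu
    exact lap_sq_le (localRiem_chartG (mem_chartAt_atlas p)) (mem_chart_target E p)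
      (contDiffOn_chart (mem_chartAt_atlas p) hu.1) α
  · intro α u p hu
    exact item6 hu.1 α p
  · intro K u p hK hu
    exact item7 hu.1 hK p
  · intro α u v p hu hv
    have he := mem_chartAt_atlas (E := E) p
    have hR := localRiem_chartG he
    have hz := mem_chart_target E p
    have hφ := contDiffOn_chart he hu.1
    have hψ := contDiffOn_chart he hv.1
    obtain ⟨b, hb⟩ := exists_onbG hR hz
    have h1 := tr_sq_sub_le hb (hR.symm _ hz) ((op_SA hR hz hφ).sub_smul_id (α / 2))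
      ((op_SA hR hz hψ).sub_smul_id (α / 2))
    have h2 : opG (chartG (chartAt E p)) (u ∘ (chartAt E p).symm) (chartAt E p p) -
        (α / 2) • ContinuousLinearMap.id ℝ E -
        (opG (chartG (chartAt E p)) (v ∘ (chartAt E p).symm) (chartAt E p p) -
        (α / 2) • ContinuousLinearMap.id ℝ E) =
        opG (chartG (chartAt E p)) ((fun q => u q - v q) ∘ (chartAt E p).symm)
          (chartAt E p p) := by
      have h3 : (fun q => u q - v q) ∘ (chartAt E p).symm = fun y =>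
        (u ∘ (chartAt E p).symm) y - (v ∘ (chartAt E p).symm) y := rfl
      rw [h3, op_sub hR hz hφ hψ]
      abel
    rw [h2] at h1
    rw [HS, hsG_zero]
    exact h1
  · intro c u v p hu hv
    have he := mem_chartAt_atlas (E := E) p
    have hR := localRiem_chartG he
    have hz := mem_chart_target E p
    have hφ := contDiffOn_chart he hu.1
    have hψ := contDiffOn_chart he hv.1
    obtain ⟨b, hb⟩ := exists_onbG hR hz
    have h3 : (fun q => u q + v q) ∘ (chartAt E p).symm = fun y =>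
        (u ∘ (chartAt E p).symm) y + (v ∘ (chartAt E p).symm) y := rfl
    have h4 : (fun q => c * u q) ∘ (chartAt E p).symm = fun y =>
        c * (u ∘ (chartAt E p).symm) y := rfl
    refine ⟨?_, ?_, ?_, ?_⟩
    · rw [HS, HS, hsG_zero, hsG_zero, h4, op_smul hR hz hφ, ContinuousLinearMap.smul_comp,
        ContinuousLinearMap.comp_smul, tr_smul, tr_smul]
      ring
    · have h1 := tr_sq_add_le hb (hR.symm _ hz) (op_SA hR hz hφ) (op_SA hR hz hψ)
      rw [HS, HS, HS, hsG_zero, hsG_zero, hsG_zero, h3, op_add hR hz hφ hψ]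
      exact h1
    · rw [Lap, Lap, lapG_eq, lapG_eq, h4, op_smul hR hz hφ, tr_smul]
    · rw [Lap, Lap, Lap, lapG_eq, lapG_eq, lapG_eq, h3, op_add hR hz hφ hψ, tr_add]

end Vale.Agent.P210.R2.H755
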