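import Vale.Agent.P210.R2.H755.ScxB
import Vale.Agent.P210.R2.H755.Calc

/-!
# Integration by parts (interface for the scalar curvature inequality)
-/

open scoped Manifold ContDiff Topology Bundle ENNReal NNReal
open Set Metric Filter Bundle IsManifold MeasureTheory Manifold Asymptotics

set_option maxSynthPendingDepth 3
set_option linter.unusedSectionVars false

noncomputable section

namespace Vale.Agent.P210.R2.H755

open Vale.Agent.P210.R2.H53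

variable {E : Type} [NormedAddCommGroup E] [NormedSpace ℝ E] [FiniteDimensional ℝ E]
  [MeasurableSpace E] [BorelSpace E]
  {M : Type} [MetricSpace M] [ChartedSpace E M]
  [RiemannianBundle (fun x : M => TangentSpace 𝓘(ℝ, E) x)]
  [IsManifold 𝓘(ℝ, E) ∞ M]
  [IsContMDiffRiemannianBundle 𝓘(ℝ, E) ∞ E (fun x : M => TangentSpace 𝓘(ℝ, E) x)]
  [IsRiemannianManifold 𝓘(ℝ, E) M] [MeasurableSpace M] [BorelSpace M] [ProperSpace M]

/-- smooth functions are locally Lipschitz -/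
theorem smooth_ll {μ : Measure M} (hc : Cal E μ) {g : M → ℝ}
    (hg : ContMDiff 𝓘(ℝ, E) 𝓘(ℝ, ℝ) ∞ g) : LocallyLipschitz g := by
  intro p
  obtain ⟨χ, hχ, -, h1, -⟩ := hc.cut {p} univ isCompact_singleton isOpen_univ (subset_univ _)
  have h2 : TF E (fun q => χ q * g q) := ⟨hχ.1.mul hg, hχ.2.mul_right⟩
  obtain ⟨K, t, ht, hK⟩ := hc.tfll _ h2 p
  have h3 : ∀ᶠ q in 𝓝 p, χ q = 1 := by
    rw [nhdsSet_singleton] at h1; exact h1
  refine ⟨K, t ∩ {q | χ q = 1}, inter_mem ht h3, ?_⟩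
  intro x hx y hy
  have := hK hx.1 hy.1
  simp only [hx.2.out, hy.2.out, one_mul] at this
  exact this

theorem smooth_lc {μ : Measure M} (hc : Cal E μ) {g Ψ : M → ℝ}
    (hg : ContMDiff 𝓘(ℝ, E) 𝓘(ℝ, ℝ) ∞ g) (hΨ : LC Ψ) : LC (fun q => Ψ q * g q) :=
  LC.mul_right hΨ (smooth_ll hc hg)

theorem zero_int (hA : Stmt.CALA) (hB : Stmt.CALB) (hD : Stmt.CALD)
    (hn : 1 ≤ Module.finrank ℝ E) {μ : Measure M} (hμ : IsVol E μ) {a g Ψ : M → ℝ}
    (ha : TF E a) (hg : ContMDiff 𝓘(ℝ, E) 𝓘(ℝ, ℝ) ∞ g) (hΨ : LC Ψ) :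
    Integrable (fun p => Gam E a (fun q => Ψ q * g q) p + Ψ p * g p * Lap E a p) μ ∧
      ∫ p, (Gam E a (fun q => Ψ q * g q) p + Ψ p * g p * Lap E a p) ∂μ = 0 := by
  have hc : Cal E μ := cal_of hA hB hD hn hμ
  have hv := smooth_lc hc hg hΨ
  have i1 := hc.int_gam (hc.tfll a ha) hv
  have i2 : Integrable (fun p => Ψ p * g p * Lap E a p) μ :=
    hc.int_cont (hv.cont.mul (contMDiff_Lap ha.1).continuous) hv.2.mul_right
  refine ⟨i1.add i2, ?_⟩
  have h1 : ∫ p, (Gam E a (fun q => Ψ q * g q) p + Ψ p * g p * Lap E a p) ∂μ =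
      ∫ p, Gam E a (fun q => Ψ q * g q) p ∂μ + ∫ p, Ψ p * g p * Lap E a p ∂μ :=
    integral_add i1 i2
  rw [h1, hc.ibp a _ ha hv]
  ring

theorem int_sqrt (hA : Stmt.CALA) (hB : Stmt.CALB) (hD : Stmt.CALD)
    (hn : 1 ≤ Module.finrank ℝ E) {μ : Measure M} (hμ : IsVol E μ) {S Ψ : M → ℝ}
    (hS : Continuous S) (hΨ : LC Ψ) :
    Integrable (fun p => √(Gam E Ψ Ψ p) * √(S p)) μ ∧ Integrable (fun p => Ψ p * S p) μ := by
  have hc : Cal E μ := cal_of hA hB hD hn hμ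
  refine ⟨?_, hc.int_cont (hΨ.cont.mul hS) hΨ.2.mul_right⟩
  have h1 := int_bd hc hΨ (Real.continuous_sqrt.comp hS)
  have h2 : Integrable (fun p => Ψ p * (√(S p)) ^ 2) μ :=
    hc.int_cont (hΨ.cont.mul ((Real.continuous_sqrt.comp hS).pow 2)) hΨ.2.mul_right
  refine (h1.sub h2).congr (Eventually.of_forall fun p => ?_)
  simp [Bd]

end Vale.Agent.P210.R2.H755
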