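import Vale.Agent.P210.R2.H973.RicA

set_option linter.all false

open scoped ContDiff Topology
open Set Metric Filter

set_option maxSynthPendingDepth 3

noncomputable section

namespace Vale.Agent.P210.R2.H755

open Vale.Agent.P210.R2.H53 Vale.Agent.P210.R2.H973

variable {E : Type} [NormedAddCommGroup E] [NormedSpace ℝ E]
  {B : E →L[ℝ] E →L[ℝ] ℝ}

/-- trace of a continuous endomorphism -/
def tr (T : E →L[ℝ] E) : ℝ := LinearMap.trace ℝ E (T : E →ₗ[ℝ] E)

section lin
variable [FiniteDimensional ℝ E]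

theorem tr_add (S T : E →L[ℝ] E) : tr (S + T) = tr S + tr T := by
  simp only [tr, ContinuousLinearMap.toLinearMap_add, map_add]

theorem tr_sub (S T : E →L[ℝ] E) : tr (S - T) = tr S - tr T := by
  simp only [tr, ContinuousLinearMap.toLinearMap_sub, map_sub]

theorem tr_smul (c : ℝ) (T : E →L[ℝ] E) : tr (c • T) = c * tr T := by
  simp only [tr, ContinuousLinearMap.toLinearMap_smul, map_smul, smul_eq_mul]

theorem tr_id : tr (ContinuousLinearMap.id ℝ E) = Module.finrank ℝ E := by
  exact LinearMap.trace_id ℝ E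

theorem tr_comm (S T : E →L[ℝ] E) : tr (S.comp T) = tr (T.comp S) := by
  simp only [tr, ContinuousLinearMap.toLinearMap_comp]
  exact LinearMap.trace_comp_comm' _ _

theorem repr_onb {b : Module.Basis (Fin (Module.finrank ℝ E)) ℝ E} (hb : ONB B b) (v : E)
    (i : Fin (Module.finrank ℝ E)) : b.repr v i = B v (b i) := by
  conv_rhs => rw [← b.sum_repr v]
  rw [map_sum, ContinuousLinearMap.sum_apply]
  simp only [map_smul, smul_apply, hb _ i, smul_eq_mul, mul_ite, mul_one, mul_zero,
    Finset.sum_ite_eq', Finset.mem_univ, if_true]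

theorem tr_onb {b : Module.Basis (Fin (Module.finrank ℝ E)) ℝ E} (hb : ONB B b)
    (T : E →L[ℝ] E) : tr T = ∑ i, B (T (b i)) (b i) := by
  rw [tr, LinearMap.trace_eq_matrix_trace ℝ b, Matrix.trace]
  refine Finset.sum_congr rfl fun i _ => ?_
  rw [Matrix.diag_apply, LinearMap.toMatrix_apply, repr_onb hb]
  rfl

theorem onb_inner {b : Module.Basis (Fin (Module.finrank ℝ E)) ℝ E} (hb : ONB B b) (v w : E) :
    B v w = ∑ i, B v (b i) * B w (b i) := by
  conv_lhs => rw [← b.sum_repr w, map_sum]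
  refine Finset.sum_congr rfl fun i _ => ?_
  rw [map_smul, smul_eq_mul, repr_onb hb w i]
  ring

theorem onb_cs {b : Module.Basis (Fin (Module.finrank ℝ E)) ℝ E} (hb : ONB B b) (v w : E) :
    B v w ^ 2 ≤ B v v * B w w := by
  rw [onb_inner hb v w, onb_inner hb v v, onb_inner hb w w]
  have := Finset.sum_mul_sq_le_sq_mul_sq Finset.univ (fun i => B v (b i)) (fun i => B w (b i))
  simpa only [← sq] using this

theorem onb_nonneg {b : Module.Basis (Fin (Module.finrank ℝ E)) ℝ E} (hb : ONB B b) (v : E) :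
    0 ≤ B v v := by
  rw [onb_inner hb v v]
  exact Finset.sum_nonneg fun i _ => mul_self_nonneg _

/-- self adjoint -/
def SA (B : E →L[ℝ] E →L[ℝ] ℝ) (T : E →L[ℝ] E) : Prop := ∀ v w, B (T v) w = B v (T w)

omit [FiniteDimensional ℝ E] in
theorem SA.sub_smul_id {T : E →L[ℝ] E} (h : SA B T) (c : ℝ) :
    SA B (T - c • ContinuousLinearMap.id ℝ E) := by
  intro v w
  simp only [sub_apply, smul_apply, ContinuousLinearMap.id_apply, map_sub, map_smul]
  rw [h v w]

omit [FiniteDimensional ℝ E] in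
theorem SA.sub {S T : E →L[ℝ] E} (hS : SA B S) (hT : SA B T) : SA B (S - T) := by
  intro v w
  simp only [sub_apply, map_sub]
  rw [hS v w, hT v w]

omit [FiniteDimensional ℝ E] in
theorem SA.add {S T : E →L[ℝ] E} (hS : SA B S) (hT : SA B T) : SA B (S + T) := by
  intro v w
  simp only [add_apply, map_add]
  rw [hS v w, hT v w]

omit [FiniteDimensional ℝ E] in
theorem SA.smul {T : E →L[ℝ] E} (hT : SA B T) (c : ℝ) : SA B (c • T) := by
  intro v w
  simp only [smul_apply, map_smul]
  rw [hT v w]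

theorem tr_sq {b : Module.Basis (Fin (Module.finrank ℝ E)) ℝ E} (hb : ONB B b)
    {T : E →L[ℝ] E} (hT : SA B T) : tr (T.comp T) = ∑ i, B (T (b i)) (T (b i)) := by
  rw [tr_onb hb]
  refine Finset.sum_congr rfl fun i _ => ?_
  rw [ContinuousLinearMap.comp_apply, hT]

theorem tr_sq_nonneg {b : Module.Basis (Fin (Module.finrank ℝ E)) ℝ E} (hb : ONB B b)
    {T : E →L[ℝ] E} (hT : SA B T) : 0 ≤ tr (T.comp T) := by
  rw [tr_sq hb hT]
  exact Finset.sum_nonneg fun i _ => onb_nonneg hb _

theorem sq_le_tr_sq {b : Module.Basis (Fin (Module.finrank ℝ E)) ℝ E} (hb : ONB B b)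
    {T : E →L[ℝ] E} (hT : SA B T) (v : E) : B (T v) (T v) ≤ tr (T.comp T) * B v v := by
  rw [tr_sq hb hT, onb_inner hb (T v) (T v), Finset.sum_mul]
  refine Finset.sum_le_sum fun i _ => ?_
  rw [hT v (b i)]
  have := onb_cs hb v (T (b i))
  nlinarith only [this]

theorem tr_le {b : Module.Basis (Fin (Module.finrank ℝ E)) ℝ E} (hb : ONB B b)
    {T : E →L[ℝ] E} (hT : SA B T) : tr T ^ 2 ≤ Module.finrank ℝ E * tr (T.comp T) := by
  rw [tr_sq hb hT, tr_onb hb]
  have h1 := Finset.sum_mul_sq_le_sq_mul_sq Finset.univ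
    (fun _ : Fin (Module.finrank ℝ E) => (1 : ℝ)) (fun i => B (T (b i)) (b i))
  simp only [one_mul, one_pow, Finset.sum_const, Finset.card_univ, Fintype.card_fin,
    nsmul_eq_mul, mul_one] at h1
  refine h1.trans (mul_le_mul_of_nonneg_left (Finset.sum_le_sum fun i _ => ?_)
    (Nat.cast_nonneg _))
  have := onb_cs hb (T (b i)) (b i)
  rw [hb i i, if_pos rfl, mul_one] at this
  exact this

theorem tr_sq_sub_le {b : Module.Basis (Fin (Module.finrank ℝ E)) ℝ E} (hb : ONB B b)
    {S T : E →L[ℝ] E} (hsym : ∀ v w, B v w = B w v) (hS : SA B S) (hT : SA B T) :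
    tr ((S - T).comp (S - T)) ≤ 2 * (tr (S.comp S) + tr (T.comp T)) := by
  rw [tr_sq hb (hS.sub hT), tr_sq hb hS, tr_sq hb hT, ← Finset.sum_add_distrib, Finset.mul_sum]
  refine Finset.sum_le_sum fun i _ => ?_
  have h1 := onb_nonneg hb (S (b i) + T (b i))
  simp only [map_add, _root_.add_apply] at h1
  simp only [_root_.sub_apply, map_sub]
  rw [hsym (T (b i)) (S (b i))] at h1 ⊢
  linarith only [h1]

theorem tr_sq_add_le {b : Module.Basis (Fin (Module.finrank ℝ E)) ℝ E} (hb : ONB B b)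
    {S T : E →L[ℝ] E} (hsym : ∀ v w, B v w = B w v) (hS : SA B S) (hT : SA B T) :
    tr ((S + T).comp (S + T)) ≤ 2 * (tr (S.comp S) + tr (T.comp T)) := by
  rw [tr_sq hb (hS.add hT), tr_sq hb hS, tr_sq hb hT, ← Finset.sum_add_distrib, Finset.mul_sum]
  refine Finset.sum_le_sum fun i _ => ?_
  have h1 := onb_nonneg hb (S (b i) - T (b i))
  simp only [map_sub, _root_.sub_apply] at h1
  simp only [_root_.add_apply, map_add]
  rw [hsym (T (b i)) (S (b i))] at h1 ⊢
  linarith only [h1]

/-- expansion of the trace of a shifted square -/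
theorem tr_shift (S : E →L[ℝ] E) (a : ℝ) :
    tr ((S - a • ContinuousLinearMap.id ℝ E).comp (S - a • ContinuousLinearMap.id ℝ E)) =
      tr (S.comp S) - 2 * a * tr S + Module.finrank ℝ E * a ^ 2 := by
  have h : (S - a • ContinuousLinearMap.id ℝ E).comp (S - a • ContinuousLinearMap.id ℝ E) =
      S.comp S - (2 * a) • S + (a ^ 2) • ContinuousLinearMap.id ℝ E := by
    ext v
    simp only [ContinuousLinearMap.comp_apply, sub_apply, smul_apply,
      ContinuousLinearMap.id_apply, map_sub, map_smul, add_apply]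
    module
  rw [h, tr_add, tr_sub, tr_smul, tr_smul, tr_id]
  ring

/-- conjugation -/
theorem tr_conj {A S S' : E →L[ℝ] E} (hA : Function.Bijective A)
    (h : A.comp S = S'.comp A) : tr S = tr S' := by
  let e : E ≃L[ℝ] E := (LinearEquiv.ofBijective (A : E →ₗ[ℝ] E) hA).toContinuousLinearEquiv
  have he : ∀ x, e x = A x := fun x => rfl
  have h1 : S = (e.symm : E →L[ℝ] E).comp (S'.comp A) := by
    rw [← h]
    ext x
    simp only [ContinuousLinearMap.comp_apply, ContinuousLinearEquiv.coe_coe]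
    rw [← he, e.symm_apply_apply]
  rw [h1, tr_comm]
  congr 1
  ext x
  simp only [ContinuousLinearMap.comp_apply, ContinuousLinearEquiv.coe_coe]
  rw [← he, e.apply_symm_apply]

theorem tr_conj_sq {A S S' : E →L[ℝ] E} (hA : Function.Bijective A) (a : ℝ)
    (h : A.comp S = S'.comp A) :
    tr ((S - a • ContinuousLinearMap.id ℝ E).comp (S - a • ContinuousLinearMap.id ℝ E)) =
    tr ((S' - a • ContinuousLinearMap.id ℝ E).comp (S' - a • ContinuousLinearMap.id ℝ E)) := by
  have h0 : ∀ x, A (S x) = S' (A x) := fun x => congrArg (fun T : E →L[ℝ] E => T x) h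
  refine tr_conj hA ?_
  ext x
  simp only [ContinuousLinearMap.comp_apply, sub_apply, smul_apply,
    ContinuousLinearMap.id_apply, map_sub, map_smul, h0]

end lin

end Vale.Agent.P210.R2.H755
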