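import Vale.Agent.P210.R2.H755.Flat

set_option linter.all false

open scoped ContDiff Topology
open Set Metric Filter

set_option maxSynthPendingDepth 3

noncomputable section

namespace Vale.Agent.P210.R2.H755

open Vale.Agent.P210.R2.H53 Vale.Agent.P210.R2.H973

variable {E : Type} [NormedAddCommGroup E] [NormedSpace ℝ E] [FiniteDimensional ℝ E]
  {G : E → E →L[ℝ] E →L[ℝ] ℝ} {U : Set E} {z : E} {φ ψ : E → ℝ}

theorem exists_onbG (h : LocalRiem G U) (hz : z ∈ U) :
    ∃ b : Module.Basis (Fin (Module.finrank ℝ E)) ℝ E, ONB (G z) b :=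
  exists_onb (G z) (h.symm z hz) (h.pos z hz)

/-- derivative of the Laplacian in the direction `v` -/
theorem fderiv_lapG (h : LocalRiem G U) (hz : z ∈ U) (hφ : ContDiffOn ℝ ∞ φ U) (v : E) :
    fderiv ℝ (lapG G φ) z v = tr (fderiv ℝ (opG G φ) z v) := by
  have h1 : HasFDerivAt (fun y => trL E (opG G φ y)) _ z :=
    (trL E).hasFDerivAt.comp z (hasFDerivAt_of h hz (contDiffOn_opG h hφ))
  have h2 : lapG G φ = fun y => trL E (opG G φ y) := rfl
  rw [h2, h1.fderiv]
  rfl

/-- Bochner's formula -/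
theorem bochner (h : LocalRiem G U) (hz : z ∈ U) (hφ : ContDiffOn ℝ ∞ φ U) :
    (1 / 2) * lapG G (gamG G φ φ) z =
      tr ((opG G φ z).comp (opG G φ z)) + gamG G φ (lapG G φ) z + ric G z (gradG G φ z) := by
  set X := gradG G φ z with hX
  set S := opG G φ z with hS
  have cX := contDiffOn_gradG h hφ
  have cS := contDiffOn_opG h hφ
  have cF := contDiffOn_gamG h hφ hφ
  -- the two endomorphisms
  set A1 : E →L[ℝ] E := (fderiv ℝ (opG G φ) z).flip X + (chris G z).flip (S X)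
    - S.comp ((chris G z).flip X) with hA1
  set A2 : E →L[ℝ] E := fderiv ℝ (opG G φ) z X + (chris G z X).comp S
    - S.comp (chris G z X) with hA2
  have a1 : ∀ v, A1 v = fderiv ℝ (opG G φ) z v X + chris G z v (S X) - S (chris G z v X) :=
    fun v => rfl
  have a2 : ∀ v, A2 v = fderiv ℝ (opG G φ) z X v + chris G z X (S v) - S (chris G z X v) :=
    fun v => rfl
  have hdiff : ∀ v, (A1 - A2) v = curvG G z v X X := by
    intro v
    rw [sub_apply, a1, a2]
    exact cov_comm h hz hφ v X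
  have e1 : opG G (gamG G φ φ) z = (2 : ℝ) • (A1 + S.comp S) := by
    ext v
    rw [op_eq h hz cF]
    have g1 : gradG G (gamG G φ φ) =ᶠ[𝓝 z] fun y => (2 : ℝ) • (opG G φ y (gradG G φ y)) := by
      filter_upwards [h.isOpen.mem_nhds hz] with y hy
      rw [grad_gamG h hy hφ hφ, two_smul]
    have g2 : HasFDerivAt (fun y => (2 : ℝ) • (opG G φ y (gradG G φ y))) _ z :=
      ((hasFDerivAt_of h hz cS).clm_apply (hasFDerivAt_of h hz cX)).const_smul (2 : ℝ)
    rw [g1.fderiv_eq, g2.fderiv, g1.self_of_nhds]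
    have e2 := op_eq h hz hφ v
    have f1 : fderiv ℝ (gradG G φ) z v = S v - chris G z v X := by
      rw [hS, e2]; abel
    simp only [smul_apply, add_apply, ContinuousLinearMap.comp_apply,
      ContinuousLinearMap.flip_apply, a1]
    rw [f1, ← hX, ← hS, map_smul, map_sub]
    module
  have hcomm : tr A2 = tr (fderiv ℝ (opG G φ) z X) := by
    rw [hA2, tr_sub, tr_add, tr_comm (chris G z X) S]
    ring
  obtain ⟨b, hb⟩ := exists_onbG h hz
  have hsum : tr A1 - tr A2 = ric G z X := by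
    rw [← tr_sub, tr_onb hb, ← ric_eq hb]
    refine Finset.sum_congr rfl fun i _ => ?_
    rw [hdiff]
    exact curv_sec h hz (b i) X
  have hlap : gamG G φ (lapG G φ) z = tr (fderiv ℝ (opG G φ) z X) := by
    rw [gamG_symm h hz, gamG_apply, ← hX, fderiv_lapG h hz hφ]
  rw [lapG_eq, e1, tr_smul, tr_add, hlap, ← hcomm, ← hsum]
  ring

/-- gradient bound -/
theorem gam_gam_le (h : LocalRiem G U) (hz : z ∈ U) (hφ : ContDiffOn ℝ ∞ φ U) (α : ℝ) :
    gamG G (fun y => gamG G φ φ y - α * φ y) (fun y => gamG G φ φ y - α * φ y) z ≤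
      4 * hsG G α φ z * gamG G φ φ z := by
  set X := gradG G φ z with hX
  set T := opG G φ z - (α / 2) • ContinuousLinearMap.id ℝ E with hT
  have hg : gradG G (fun y => gamG G φ φ y - α * φ y) z = (2 : ℝ) • T X := by
    refine G_inj (h.pos z hz) fun w => ?_
    have h1 : HasFDerivAt (fun y => gamG G φ φ y - α * φ y) _ z :=
      (hasFDerivAt_of h hz (contDiffOn_gamG h hφ hφ)).sub
        ((hasFDerivAt_of h hz hφ).const_mul α)
    rw [grad_spec h hz, h1.fderiv]
    simp only [sub_apply, smul_apply, smul_eq_mul]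
    rw [← grad_spec h hz, ← grad_spec h hz w, grad_gamG h hz hφ hφ, hT]
    simp only [map_add, map_smul, map_sub, add_apply, smul_apply, sub_apply,
      ContinuousLinearMap.id_apply, smul_eq_mul, ← hX]
    ring
  obtain ⟨b, hb⟩ := exists_onbG h hz
  have hSA : SA (G z) T := (op_SA h hz hφ).sub_smul_id _
  have h1 := sq_le_tr_sq hb hSA X
  rw [gamG_eq h hz, hg, gamG_eq h hz, hsG_eq]
  simp only [map_smul, smul_apply, smul_eq_mul]
  linarith only [h1]

theorem hsG_nonneg (h : LocalRiem G U) (hz : z ∈ U) (hφ : ContDiffOn ℝ ∞ φ U) (α : ℝ) :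
    0 ≤ hsG G α φ z := by
  obtain ⟨b, hb⟩ := exists_onbG h hz
  exact tr_sq_nonneg hb ((op_SA h hz hφ).sub_smul_id _)

theorem hsG_shift (α : ℝ) (φ : E → ℝ) (z : E) :
    hsG G α φ z = hsG G 0 φ z - α * lapG G φ z + Module.finrank ℝ E * α ^ 2 / 4 := by
  rw [hsG_eq, hsG_eq, lapG_eq, tr_shift, tr_shift]
  ring

theorem hsG_zero (φ : E → ℝ) (z : E) :
    hsG G 0 φ z = tr ((opG G φ z).comp (opG G φ z)) := by
  rw [hsG_eq, tr_shift]
  ring

theorem lap_sq_le (h : LocalRiem G U) (hz : z ∈ U) (hφ : ContDiffOn ℝ ∞ φ U) (α : ℝ) :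
    (lapG G φ z - Module.finrank ℝ E * α / 2) ^ 2 ≤ Module.finrank ℝ E * hsG G α φ z := by
  obtain ⟨b, hb⟩ := exists_onbG h hz
  have h1 := tr_le hb ((op_SA h hz hφ).sub_smul_id (α / 2))
  rw [tr_sub, tr_smul, tr_id] at h1
  rw [lapG_eq, hsG_eq]
  have h2 : tr (opG G φ z) - Module.finrank ℝ E * α / 2 =
      tr (opG G φ z) - α / 2 * Module.finrank ℝ E := by ring
  rw [h2]
  exact h1

theorem op_add (h : LocalRiem G U) (hz : z ∈ U) (hφ : ContDiffOn ℝ ∞ φ U)
    (hψ : ContDiffOn ℝ ∞ ψ U) :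
    opG G (fun y => φ y + ψ y) z = opG G φ z + opG G ψ z := by
  have h1 : fderiv ℝ (fun y => φ y + ψ y) =ᶠ[𝓝 z] fun y => fderiv ℝ φ y + fderiv ℝ ψ y := by
    filter_upwards [h.isOpen.mem_nhds hz] with y hy
    exact ((hasFDerivAt_of h hy hφ).add (hasFDerivAt_of h hy hψ)).fderiv
  have h2 : HasFDerivAt (fun y => fderiv ℝ φ y + fderiv ℝ ψ y) _ z :=
    (hasFDerivAt_of h hz (contDiffOn_fd h hφ)).add (hasFDerivAt_of h hz (contDiffOn_fd h hψ))
  ext v
  refine G_inj (h.pos z hz) fun w => ?_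
  rw [op_spec h hz, hessG_apply, h1.fderiv_eq, h1.self_of_nhds, h2.fderiv, add_apply (opG G φ z),
    map_add (G z), add_apply (G z _), op_spec h hz, op_spec h hz, hessG_apply, hessG_apply]
  simp only [add_apply]
  ring

theorem op_smul (h : LocalRiem G U) (hz : z ∈ U) (hφ : ContDiffOn ℝ ∞ φ U) (c : ℝ) :
    opG G (fun y => c * φ y) z = c • opG G φ z := by
  have h1 : fderiv ℝ (fun y => c * φ y) =ᶠ[𝓝 z] fun y => c • fderiv ℝ φ y := by
    filter_upwards [h.isOpen.mem_nhds hz] with y hy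
    exact ((hasFDerivAt_of h hy hφ).const_mul c).fderiv
  have h2 : HasFDerivAt (fun y => c • fderiv ℝ φ y) _ z :=
    (hasFDerivAt_of h hz (contDiffOn_fd h hφ)).const_smul c
  ext v
  refine G_inj (h.pos z hz) fun w => ?_
  rw [op_spec h hz, hessG_apply, h1.fderiv_eq, h1.self_of_nhds, h2.fderiv]
  simp only [smul_apply, smul_eq_mul, map_smul]
  rw [op_spec h hz, hessG_apply]
  ring

theorem op_sub (h : LocalRiem G U) (hz : z ∈ U) (hφ : ContDiffOn ℝ ∞ φ U)
    (hψ : ContDiffOn ℝ ∞ ψ U) :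
    opG G (fun y => φ y - ψ y) z = opG G φ z - opG G ψ z := by
  have h1 : (fun y => φ y - ψ y) = fun y => φ y + (-1) * ψ y := by
    funext y; ring
  have h2 : ContDiffOn ℝ ∞ (fun y => (-1) * ψ y) U := contDiffOn_const.mul hψ
  rw [h1, op_add h hz hφ h2, op_smul h hz hψ]
  module

end Vale.Agent.P210.R2.H755
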