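import Vale.Agent.P210.R2.H755.Calc

set_option linter.all false

open scoped Manifold ContDiff Topology Bundle
open Set Metric Filter Bundle IsManifold MeasureTheory Manifold

set_option maxSynthPendingDepth 3

noncomputable section

namespace Vale.Agent.P210.R2.H755

open Vale.Agent.P210.R2.H53 Vale.Agent.P210.R2.H973

section flat

variable {E : Type} [NormedAddCommGroup E] [NormedSpace ℝ E] [FiniteDimensional ℝ E]
  {G : E → E →L[ℝ] E →L[ℝ] ℝ} {U : Set E} {z : E} {φ : E → ℝ}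

/-- Bochner's formula, with `hsG` -/
theorem bochner_hs (h : LocalRiem G U) (hz : z ∈ U) (hφ : ContDiffOn ℝ ∞ φ U) :
    (1 / 2) * lapG G (gamG G φ φ) z =
      hsG G 0 φ z + gamG G φ (lapG G φ) z + ric G z (gradG G φ z) := by
  rw [bochner h hz hφ, hsG_zero]

/-- the trace of the square of the Hessian operator -/
theorem hsG_sum (h : LocalRiem G U) (hz : z ∈ U) (hφ : ContDiffOn ℝ ∞ φ U)
    {b : Module.Basis (Fin (Module.finrank ℝ E)) ℝ E} (hb : ONB (G z) b) :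
    hsG G 0 φ z = ∑ i, ∑ j, hessG G φ z (b i) (b j) ^ 2 := by
  rw [hsG_zero, tr_sq hb (op_SA h hz hφ)]
  refine Finset.sum_congr rfl fun i _ => ?_
  rw [onb_inner hb]
  refine Finset.sum_congr rfl fun j _ => ?_
  rw [op_spec h hz, sq]

end flat

variable {E : Type} [NormedAddCommGroup E] [NormedSpace ℝ E] [FiniteDimensional ℝ E]
  {M : Type} [MetricSpace M] [ChartedSpace E M]
  [RiemannianBundle (fun x : M => TangentSpace 𝓘(ℝ, E) x)]
  [IsManifold 𝓘(ℝ, E) ∞ M]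
  [IsContMDiffRiemannianBundle 𝓘(ℝ, E) ∞ E (fun x : M => TangentSpace 𝓘(ℝ, E) x)]

/-- Bochner's formula on the manifold, in any chart -/
theorem bochner_ric {u : M → ℝ} (hu : ContMDiff 𝓘(ℝ, E) 𝓘(ℝ, ℝ) ∞ u)
    {e : OpenPartialHomeomorph M E} (he : e ∈ maximalAtlas 𝓘(ℝ, E) ∞ M) {p : M}
    (hp : p ∈ e.source) :
    ric (chartG e) (e p) (gradG (chartG e) (u ∘ e.symm) (e p)) =
      (1 / 2) * Lap E (Gam E u u) p - Gam E u (Lap E u) p - HS E 0 u p := by
  have hz : e p ∈ e.target := e.map_source hp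
  have hR := localRiem_chartG he
  have hφ := contDiffOn_chart he hu
  have h1 : (Gam E u u) ∘ e.symm =ᶠ[𝓝 (e p)] gamG (chartG e) (u ∘ e.symm) (u ∘ e.symm) :=
    comp_chart_eq (fun q hq => Gam_chart hu hu he hq) hz
  have h2 : (Lap E u) ∘ e.symm =ᶠ[𝓝 (e p)] lapG (chartG e) (u ∘ e.symm) :=
    comp_chart_eq (fun q hq => Lap_chart hu he hq) hz
  rw [Lap_chart (contMDiff_Gam hu hu) he hp, Gam_chart hu (contMDiff_Lap hu) he hp,
    HS_chart hu he hp, lapG_congr h1, gamG_congr (EventuallyEq.refl _ _) h2,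
    bochner_hs hR hz hφ]
  ring

theorem bochner_sum {u : M → ℝ} (hu : ContMDiff 𝓘(ℝ, E) 𝓘(ℝ, ℝ) ∞ u)
    {e : OpenPartialHomeomorph M E} (he : e ∈ maximalAtlas 𝓘(ℝ, E) ∞ M) {p : M}
    (hp : p ∈ e.source) {b : Module.Basis (Fin (Module.finrank ℝ E)) ℝ E}
    (hb : ONB (chartG e (e p)) b) :
    ∑ i, secG (chartG e) (e p) (b i) (gradG (chartG e) (u ∘ e.symm) (e p)) =
      (1 / 2) * Lap E (Gam E u u) p - Gam E u (Lap E u) p - HS E 0 u p := by
  rw [ric_eq hb, bochner_ric hu he hp]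

end Vale.Agent.P210.R2.H755
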