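import Vale.Agent.P210.R2.H53.RDefs
import Vale.Agent.P210.R2.H755.Alg

set_option linter.all false

open scoped ContDiff Topology
open Set Metric Filter

set_option maxSynthPendingDepth 3

noncomputable section

namespace Vale.Agent.P210.R2.H755

open Vale.Agent.P210.R2.H53 Vale.Agent.P210.R2.H973

variable {E : Type} [NormedAddCommGroup E] [NormedSpace ℝ E]
  {G : E → E →L[ℝ] E →L[ℝ] ℝ} {U : Set E} {z : E} {φ ψ : E → ℝ}

theorem gamG_apply (G : E → E →L[ℝ] E →L[ℝ] ℝ) (φ ψ : E → ℝ) (z : E) :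
    gamG G φ ψ z = fderiv ℝ φ z (gradG G ψ z) := rfl

theorem hessG_apply (G : E → E →L[ℝ] E →L[ℝ] ℝ) (φ : E → ℝ) (z v w : E) :
    hessG G φ z v w = fderiv ℝ (fderiv ℝ φ) z v w - fderiv ℝ φ z (chris G z v w) := by
  simp [hessG]

theorem opG_apply (G : E → E →L[ℝ] E →L[ℝ] ℝ) (φ : E → ℝ) (z v : E) :
    opG G φ z v = ContinuousLinearMap.inverse (G z) (hessG G φ z v) := rfl

theorem lapG_eq (G : E → E →L[ℝ] E →L[ℝ] ℝ) (φ : E → ℝ) (z : E) :
    lapG G φ z = tr (opG G φ z) := rfl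

theorem hsG_eq (G : E → E →L[ℝ] E →L[ℝ] ℝ) (α : ℝ) (φ : E → ℝ) (z : E) :
    hsG G α φ z = tr ((opG G φ z - (α / 2) • ContinuousLinearMap.id ℝ E).comp
      (opG G φ z - (α / 2) • ContinuousLinearMap.id ℝ E)) := rfl

/-! ### germs -/

theorem fderiv_germ {F : Type*} [NormedAddCommGroup F] [NormedSpace ℝ F] {f g : E → F}
    (h : f =ᶠ[𝓝 z] g) : fderiv ℝ f =ᶠ[𝓝 z] fderiv ℝ g :=
  h.eventuallyEq_nhds.mono fun _ hy => hy.fderiv_eq

theorem gradG_congr (h : φ =ᶠ[𝓝 z] ψ) : gradG G φ z = gradG G ψ z := by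
  rw [gradG, gradG, h.fderiv_eq]

theorem hessG_congr (h : φ =ᶠ[𝓝 z] ψ) : hessG G φ z = hessG G ψ z := by
  rw [hessG, hessG, h.fderiv_eq, (fderiv_germ h).fderiv_eq]

theorem opG_congr (h : φ =ᶠ[𝓝 z] ψ) : opG G φ z = opG G ψ z := by
  rw [opG, opG, hessG_congr h]

theorem lapG_congr (h : φ =ᶠ[𝓝 z] ψ) : lapG G φ z = lapG G ψ z := by
  rw [lapG, lapG, opG_congr h]

theorem hsG_congr {α : ℝ} (h : φ =ᶠ[𝓝 z] ψ) : hsG G α φ z = hsG G α ψ z := by
  rw [hsG, hsG, opG_congr h]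

section fin
variable [FiniteDimensional ℝ E]

/-! ### the inverse metric -/

theorem inverse_spec (hpos : ∀ v, v ≠ 0 → 0 < G z v v) (L : E →L[ℝ] ℝ) :
    G z (ContinuousLinearMap.inverse (G z) L) = L := by
  obtain ⟨T, hT⟩ := isInvertible_of_pos hpos
  rw [← hT, ContinuousLinearMap.inverse_equiv]
  exact T.apply_symm_apply L

theorem G_inj (hpos : ∀ v, v ≠ 0 → 0 < G z v v) {v w : E} (h : ∀ y, G z v y = G z w y) :
    v = w := by
  by_contra hne
  have h1 := hpos (v - w) (sub_ne_zero.2 hne)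
  rw [map_sub (G z), sub_apply, h] at h1
  linarith only [h1]

theorem contDiffOn_inverse (h : LocalRiem G U) :
    ContDiffOn ℝ ∞ (fun z => ContinuousLinearMap.inverse (G z)) U := by
  have : CompleteSpace E := FiniteDimensional.complete ℝ E
  intro z hz
  obtain ⟨T, hT⟩ := isInvertible_of_pos (h.pos z hz)
  have h1 : ContDiffAt ℝ ∞ ContinuousLinearMap.inverse (G z) := by
    rw [← hT]; exact contDiffAt_map_inverse T
  exact (h1.comp z (h.smooth.contDiffAt (h.isOpen.mem_nhds hz))).contDiffWithinAt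

theorem grad_spec (h : LocalRiem G U) (hz : z ∈ U) (w : E) :
    G z (gradG G φ z) w = fderiv ℝ φ z w := by
  rw [gradG, inverse_spec (h.pos z hz)]

theorem gamG_eq (h : LocalRiem G U) (hz : z ∈ U) :
    gamG G φ ψ z = G z (gradG G φ z) (gradG G ψ z) := by
  rw [gamG_apply, grad_spec h hz]

theorem gamG_symm (h : LocalRiem G U) (hz : z ∈ U) : gamG G φ ψ z = gamG G ψ φ z := by
  rw [gamG_eq h hz, gamG_eq h hz, h.symm z hz]

theorem contDiffOn_fd (h : LocalRiem G U) (hφ : ContDiffOn ℝ ∞ φ U) :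
    ContDiffOn ℝ ∞ (fderiv ℝ φ) U := hφ.fderiv_of_isOpen h.isOpen (by simp)

theorem contDiffOn_gradG (h : LocalRiem G U) (hφ : ContDiffOn ℝ ∞ φ U) :
    ContDiffOn ℝ ∞ (gradG G φ) U :=
  (contDiffOn_inverse h).clm_apply (contDiffOn_fd h hφ)

theorem contDiffOn_gamG (h : LocalRiem G U) (hφ : ContDiffOn ℝ ∞ φ U)
    (hψ : ContDiffOn ℝ ∞ ψ U) : ContDiffOn ℝ ∞ (gamG G φ ψ) U :=
  (contDiffOn_fd h hφ).clm_apply (contDiffOn_gradG h hψ)

theorem contDiffOn_hessG (h : LocalRiem G U) (hφ : ContDiffOn ℝ ∞ φ U) :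
    ContDiffOn ℝ ∞ (hessG G φ) U := by
  have h1 := contDiffOn_fd h hφ
  have h2 : ContDiffOn ℝ ∞ (fderiv ℝ (fderiv ℝ φ)) U := h1.fderiv_of_isOpen h.isOpen (by simp)
  have h3 : ContDiffOn ℝ ∞ (fun z => ContinuousLinearMap.compL ℝ E E ℝ (fderiv ℝ φ z)) U :=
    (ContinuousLinearMap.contDiff _).comp_contDiffOn h1
  exact h2.sub (h3.clm_comp h.contDiffOn_chris)

theorem contDiffOn_opG (h : LocalRiem G U) (hφ : ContDiffOn ℝ ∞ φ U) :
    ContDiffOn ℝ ∞ (opG G φ) U :=
  (contDiffOn_inverse h).clm_comp (contDiffOn_hessG h hφ)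

/-- the trace as a continuous linear functional -/
def trL (E : Type) [NormedAddCommGroup E] [NormedSpace ℝ E] [FiniteDimensional ℝ E] :
    (E →L[ℝ] E) →L[ℝ] ℝ :=
  LinearMap.toContinuousLinearMap
    { toFun := tr
      map_add' := tr_add
      map_smul' := fun c T => by rw [tr_smul]; rfl }

theorem trL_apply (T : E →L[ℝ] E) : trL E T = tr T := rfl

theorem contDiffOn_lapG (h : LocalRiem G U) (hφ : ContDiffOn ℝ ∞ φ U) :
    ContDiffOn ℝ ∞ (lapG G φ) U :=
  (trL E).contDiff.comp_contDiffOn (contDiffOn_opG h hφ)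

theorem contDiffOn_hsG (h : LocalRiem G U) (hφ : ContDiffOn ℝ ∞ φ U) (α : ℝ) :
    ContDiffOn ℝ ∞ (hsG G α φ) U := by
  have h1 : ContDiffOn ℝ ∞ (fun z => opG G φ z - (α / 2) • ContinuousLinearMap.id ℝ E) U :=
    (contDiffOn_opG h hφ).sub contDiffOn_const
  exact (trL E).contDiff.comp_contDiffOn (h1.clm_comp h1)

/-! ### the Hessian -/

theorem fderiv2_symm_fun (h : LocalRiem G U) (hz : z ∈ U) {F : Type*} [NormedAddCommGroup F]
    [NormedSpace ℝ F] {f : E → F} (hf : ContDiffOn ℝ ∞ f U) (v w : E) :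
    fderiv ℝ (fderiv ℝ f) z v w = fderiv ℝ (fderiv ℝ f) z w v := by
  have hs : IsSymmSndFDerivAt ℝ f z :=
    (hf.contDiffAt (h.isOpen.mem_nhds hz)).isSymmSndFDerivAt
      (by simpa using! (WithTop.coe_le_coe.2 le_top : ((2 : ℕ∞) : WithTop ℕ∞) ≤ ((⊤ : ℕ∞) : WithTop ℕ∞)))
  exact hs.eq v w

theorem hess_symm (h : LocalRiem G U) (hz : z ∈ U) (hφ : ContDiffOn ℝ ∞ φ U) (v w : E) :
    hessG G φ z v w = hessG G φ z w v := by
  rw [hessG_apply, hessG_apply, fderiv2_symm_fun h hz hφ, h.chris_symm hz]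

theorem op_spec (h : LocalRiem G U) (hz : z ∈ U) (v w : E) :
    G z (opG G φ z v) w = hessG G φ z v w := by
  rw [opG_apply, inverse_spec (h.pos z hz)]

theorem op_SA (h : LocalRiem G U) (hz : z ∈ U) (hφ : ContDiffOn ℝ ∞ φ U) :
    SA (G z) (opG G φ z) := by
  intro v w
  rw [op_spec h hz, h.symm z hz v, op_spec h hz, hess_symm h hz hφ]

theorem hasFDerivAt_of (h : LocalRiem G U) (hz : z ∈ U) {F : Type*} [NormedAddCommGroup F]
    [NormedSpace ℝ F] {f : E → F} (hf : ContDiffOn ℝ ∞ f U) : HasFDerivAt f (fderiv ℝ f z) z :=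
  ((hf.contDiffAt (h.isOpen.mem_nhds hz)).differentiableAt (by simp)).hasFDerivAt

/-- covariant derivative of the gradient -/
theorem op_eq (h : LocalRiem G U) (hz : z ∈ U) (hφ : ContDiffOn ℝ ∞ φ U) (v : E) :
    opG G φ z v = fderiv ℝ (gradG G φ) z v + chris G z v (gradG G φ z) := by
  refine G_inj (h.pos z hz) fun w => ?_
  rw [op_spec h hz, hessG_apply]
  have h1 : HasFDerivAt (fun y => G y (gradG G φ y) w) _ z :=
    ((h.differentiableAt hz).hasFDerivAt.clm_apply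
      (hasFDerivAt_of h hz (contDiffOn_gradG h hφ))).clm_apply (hasFDerivAt_const w z)
  have h2 : HasFDerivAt (fun y => fderiv ℝ φ y w) _ z :=
    (hasFDerivAt_of h hz (contDiffOn_fd h hφ)).clm_apply (hasFDerivAt_const w z)
  have h3 : (fun y => G y (gradG G φ y) w) =ᶠ[𝓝 z] (fun y => fderiv ℝ φ y w) := by
    filter_upwards [h.isOpen.mem_nhds hz] with y hy using grad_spec h hy w
  have h4 := (h1.congr_of_eventuallyEq h3.symm).unique h2
  have h5 := congrArg (fun T : E →L[ℝ] ℝ => T v) h4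
  simp at h5
  have h6 := h.fderiv_eq hz v (gradG G φ z) w
  have h7 : G z (gradG G φ z) (chris G z v w) = fderiv ℝ φ z (chris G z v w) := grad_spec h hz _
  rw [map_add (G z), add_apply]
  linarith only [h5, h6, h7]

/-- gradient of the inner product of two gradients -/
theorem grad_gamG (h : LocalRiem G U) (hz : z ∈ U) (hφ : ContDiffOn ℝ ∞ φ U)
    (hψ : ContDiffOn ℝ ∞ ψ U) :
    gradG G (gamG G φ ψ) z = opG G φ z (gradG G ψ z) + opG G ψ z (gradG G φ z) := by
  refine G_inj (h.pos z hz) fun w => ?_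
  rw [grad_spec h hz]
  have h1 : HasFDerivAt (fun y => G y (gradG G φ y) (gradG G ψ y)) _ z :=
    ((h.differentiableAt hz).hasFDerivAt.clm_apply
      (hasFDerivAt_of h hz (contDiffOn_gradG h hφ))).clm_apply
        (hasFDerivAt_of h hz (contDiffOn_gradG h hψ))
  have h3 : gamG G φ ψ =ᶠ[𝓝 z] (fun y => G y (gradG G φ y) (gradG G ψ y)) := by
    filter_upwards [h.isOpen.mem_nhds hz] with y hy using gamG_eq h hy
  rw [h3.fderiv_eq, h1.fderiv]
  simp
  have h6 := h.fderiv_eq hz w (gradG G φ z) (gradG G ψ z)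
  have a1 := op_SA h hz hφ (gradG G ψ z) w
  have a2 := op_SA h hz hψ (gradG G φ z) w
  rw [op_eq h hz hφ w, map_add] at a1
  rw [op_eq h hz hψ w, map_add] at a2
  have b1 := h.symm z hz (gradG G ψ z) (fderiv ℝ (gradG G φ) z w)
  have b2 := h.symm z hz (gradG G ψ z) (chris G z w (gradG G φ z))
  linarith only [h6, a1, a2, b1, b2]

/-- the curvature operator `R(v, w) x` -/
def curvG (G : E → E →L[ℝ] E →L[ℝ] ℝ) (z v w x : E) : E :=
  fderiv ℝ (chris G) z v w x - fderiv ℝ (chris G) z w v x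
    + chris G z v (chris G z w x) - chris G z w (chris G z v x)

theorem curv_sec (h : LocalRiem G U) (hz : z ∈ U) (a b : E) :
    G z (curvG G z a b b) a = secG G z a b := by
  have h1 := h.fderiv_chris hz a b b a
  have h2 := h.fderiv_chris hz b a b a
  have c1 := h.fderiv2_comm hz a b
  have c2 := h.fderiv2_symm hz a b b a
  have c3 : fderiv ℝ (fderiv ℝ G) z b a b a = fderiv ℝ (fderiv ℝ G) z a b b a := by rw [c1]
  have c4 := h.fderiv2_symm hz b a b a
  have s1 := h.symm z hz (chris G z b b) (chris G z a a)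
  have s2 := h.chris_symm hz b a
  simp only [curvG, secG, map_add, map_sub, add_apply, sub_apply]
  rw [s2] at h2
  linarith only [h1, h2, c2, c3, c4, s1]

/-- the derivative of the Hessian operator -/
theorem fderiv_op (h : LocalRiem G U) (hz : z ∈ U) (hφ : ContDiffOn ℝ ∞ φ U) (v w : E) :
    fderiv ℝ (opG G φ) z v w = fderiv ℝ (fderiv ℝ (gradG G φ)) z v w
      + fderiv ℝ (chris G) z v w (gradG G φ z) + chris G z w (fderiv ℝ (gradG G φ) z v) := by
  have hX := contDiffOn_gradG h hφ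
  have hDX : ContDiffOn ℝ ∞ (fderiv ℝ (gradG G φ)) U := hX.fderiv_of_isOpen h.isOpen (by simp)
  have h1 : HasFDerivAt (fun y => opG G φ y w) _ z :=
    (hasFDerivAt_of h hz (contDiffOn_opG h hφ)).clm_apply (hasFDerivAt_const w z)
  have h2 : HasFDerivAt (fun y => fderiv ℝ (gradG G φ) y w + chris G y w (gradG G φ y)) _ z :=
    ((hasFDerivAt_of h hz hDX).clm_apply (hasFDerivAt_const w z)).add
      (((h.hasFDerivAt_chris hz).clm_apply (hasFDerivAt_const w z)).clm_apply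
        (hasFDerivAt_of h hz hX))
  have h3 : (fun y => opG G φ y w) =ᶠ[𝓝 z]
      (fun y => fderiv ℝ (gradG G φ) y w + chris G y w (gradG G φ y)) := by
    filter_upwards [h.isOpen.mem_nhds hz] with y hy using op_eq h hy hφ w
  have h4 := (h1.congr_of_eventuallyEq h3.symm).unique h2
  have h5 := congrArg (fun T : E →L[ℝ] E => T v) h4
  simp at h5
  rw [h5]
  abel

/-- commutation of covariant derivatives -/
theorem cov_comm (h : LocalRiem G U) (hz : z ∈ U) (hφ : ContDiffOn ℝ ∞ φ U) (v w : E) :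
    (fderiv ℝ (opG G φ) z v w + chris G z v (opG G φ z w) - opG G φ z (chris G z v w)) -
      (fderiv ℝ (opG G φ) z w v + chris G z w (opG G φ z v) - opG G φ z (chris G z w v)) =
      curvG G z v w (gradG G φ z) := by
  have hX := contDiffOn_gradG h hφ
  rw [fderiv_op h hz hφ, fderiv_op h hz hφ, fderiv2_symm_fun h hz hX w v, h.chris_symm hz w v]
  have e1 := op_eq h hz hφ v
  have e2 := op_eq h hz hφ w
  have f1 : fderiv ℝ (gradG G φ) z v = opG G φ z v - chris G z v (gradG G φ z) := by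
    rw [e1]; abel
  have f2 : fderiv ℝ (gradG G φ) z w = opG G φ z w - chris G z w (gradG G φ z) := by
    rw [e2]; abel
  rw [f1, f2, curvG]
  simp only [map_sub]
  abel

end fin

end Vale.Agent.P210.R2.H755
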