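import Vale.Agent.P210.R2.H53.Cal

/-!
# Multipliers and integration by parts for the scalar curvature inequality
-/

open scoped Manifold ContDiff Topology Bundle ENNReal NNReal
open Set Metric Filter Bundle IsManifold MeasureTheory Manifold Asymptotics

set_option maxSynthPendingDepth 3
set_option linter.unusedSectionVars false

noncomputable section

namespace Vale.Agent.P210.R2.H755

open Vale.Agent.P210.R2.H53

variable {E : Type} [NormedAddCommGroup E] [NormedSpace ℝ E] [FiniteDimensional ℝ E]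
  [MeasurableSpace E] [BorelSpace E]
  {M : Type} [MetricSpace M] [ChartedSpace E M]
  [RiemannianBundle (fun x : M => TangentSpace 𝓘(ℝ, E) x)]
  [MeasurableSpace M] [BorelSpace M] [ProperSpace M]

variable (E) in
/-- `A` is bounded by `C` and its gradient by `C s`, where `Ψ ≠ 0` -/
structure Gd (Ψ s : M → ℝ) (C : ℝ) (A : M → ℝ) : Prop where
  ll : LocallyLipschitz A
  md : ∀ p, MDifferentiableAt 𝓘(ℝ, E) 𝓘(ℝ, ℝ) A p
  bd : ∀ p, Ψ p ≠ 0 → |A p| ≤ C
  gr : ∀ p, Ψ p ≠ 0 → √(Gam E A A p) ≤ C * s p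

variable {μ : Measure M} {Ψ s A B f w : M → ℝ} {C D L W : ℝ}

theorem gr_add (hc : Cal E μ) (u v : M → ℝ) (p : M)
    (h1 : MDifferentiableAt 𝓘(ℝ, E) 𝓘(ℝ, ℝ) u p) (h2 : MDifferentiableAt 𝓘(ℝ, E) 𝓘(ℝ, ℝ) v p) :
    √(Gam E (fun q => u q + v q) (fun q => u q + v q) p) ≤ √(Gam E u u p) + √(Gam E v v p) := by
  have h3 : Gam E (fun q => u q + v q) (fun q => u q + v q) p =
      Gam E u u p + 2 * Gam E u v p + Gam E v v p := by
    have := hc.quad u v 1 p h1 h2
    simp only [one_mul, mul_one, one_pow] at this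
    exact this
  rw [h3]
  refine Real.sqrt_le_iff.2 ⟨by positivity, ?_⟩
  have h4 := hc.abs_le u v p
  have h5 := Real.sq_sqrt (hc.nonneg u p)
  have h6 := Real.sq_sqrt (hc.nonneg v p)
  have h7 := le_abs_self (Gam E u v p)
  nlinarith only [h4, h5, h6, h7]

theorem gr_mul (hc : Cal E μ) (u v : M → ℝ) (p : M)
    (h1 : MDifferentiableAt 𝓘(ℝ, E) 𝓘(ℝ, ℝ) u p) (h2 : MDifferentiableAt 𝓘(ℝ, E) 𝓘(ℝ, ℝ) v p) :
    √(Gam E (fun q => u q * v q) (fun q => u q * v q) p) ≤
      |u p| * √(Gam E v v p) + |v p| * √(Gam E u u p) := by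
  have h3 : Gam E (fun q => u q * v q) (fun q => u q * v q) p =
      u p ^ 2 * Gam E v v p + 2 * (u p * v p) * Gam E u v p + v p ^ 2 * Gam E u u p := by
    rw [hc.mul _ _ _ _ h1 h2, hc.mul' _ _ _ _ h1 h2, hc.mul' _ _ _ _ h1 h2, hc.symm v u]
    ring
  rw [h3]
  refine Real.sqrt_le_iff.2 ⟨by positivity, ?_⟩
  have h4 := hc.abs_le u v p
  have h5 := Real.sq_sqrt (hc.nonneg u p)
  have h6 := Real.sq_sqrt (hc.nonneg v p)
  have h7 : (u p * v p) * Gam E u v p ≤ |u p| * |v p| * (√(Gam E u u p) * √(Gam E v v p)) := by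
    refine (le_abs_self _).trans ?_
    rw [abs_mul, abs_mul]
    exact mul_le_mul_of_nonneg_left h4 (by positivity)
  have h8 := sq_abs (u p)
  have h9 := sq_abs (v p)
  have h10 : (|u p| * √(Gam E v v p) + |v p| * √(Gam E u u p)) ^ 2 =
      u p ^ 2 * Gam E v v p + 2 * (|u p| * |v p| * (√(Gam E u u p) * √(Gam E v v p)))
        + v p ^ 2 * Gam E u u p := by
    rw [← h8, ← h9]
    calc _ = |u p| ^ 2 * √(Gam E v v p) ^ 2 +
        2 * (|u p| * |v p| * (√(Gam E u u p) * √(Gam E v v p)))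
        + |v p| ^ 2 * √(Gam E u u p) ^ 2 := by ring
      _ = _ := by rw [h5, h6]
  rw [h10]
  linarith only [h7]

namespace Gd

theorem const (hc : Cal E μ) (hs : ∀ p, 0 ≤ s p) (c : ℝ) (h : |c| ≤ C) :
    Gd E Ψ s C (fun _ => c) := by
  refine ⟨LocallyLipschitz.const c, fun p => mdifferentiableAt_const, fun p _ => h, fun p _ => ?_⟩
  rw [hc.const, Real.sqrt_zero]
  exact mul_nonneg ((abs_nonneg c).trans h) (hs p)

theorem add (hc : Cal E μ) (hA : Gd E Ψ s C A) (hB : Gd E Ψ s D B) :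
    Gd E Ψ s (C + D) (fun q => A q + B q) := by
  refine ⟨ll_add hA.ll hB.ll, fun p => hc.md_add (hA.md p) (hB.md p), fun p hp => ?_,
    fun p hp => ?_⟩
  · exact (abs_add_le _ _).trans (add_le_add (hA.bd p hp) (hB.bd p hp))
  · refine (gr_add hc A B p (hA.md p) (hB.md p)).trans ?_
    have h1 := hA.gr p hp
    have h2 := hB.gr p hp
    linarith only [h1, h2]

theorem mul (hc : Cal E μ) (hC : 0 ≤ C) (hD : 0 ≤ D) (hs : ∀ p, 0 ≤ s p)
    (hA : Gd E Ψ s C A) (hB : Gd E Ψ s D B) :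
    Gd E Ψ s (2 * C * D) (fun q => A q * B q) := by
  refine ⟨ll_mul hA.ll hB.ll, fun p => hc.md_mul (hA.md p) (hB.md p), fun p hp => ?_,
    fun p hp => ?_⟩
  · rw [abs_mul]
    have h1 := mul_le_mul (hA.bd p hp) (hB.bd p hp) (abs_nonneg _) hC
    have h2 := mul_nonneg hC hD
    linarith only [h1, h2]
  · refine (gr_mul hc A B p (hA.md p) (hB.md p)).trans ?_
    have h1 := mul_le_mul (hA.bd p hp) (hB.gr p hp) (Real.sqrt_nonneg _) hC
    have h2 := mul_le_mul (hB.bd p hp) (hA.gr p hp) (Real.sqrt_nonneg _) hD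
    refine (add_le_add h1 h2).trans_eq (by ring)

theorem mono (hs : ∀ p, 0 ≤ s p) (hA : Gd E Ψ s C A) (h : C ≤ D) : Gd E Ψ s D A :=
  ⟨hA.ll, hA.md, fun p hp => (hA.bd p hp).trans h, fun p hp => (hA.gr p hp).trans
    (mul_le_mul_of_nonneg_right h (hs p))⟩

theorem sum (hc : Cal E μ) (hs : ∀ p, 0 ≤ s p) {ι : Type} (t : Finset ι) {a : ι → M → ℝ}
    (hA : ∀ i ∈ t, Gd E Ψ s C (a i)) : Gd E Ψ s (t.card * C) (fun q => ∑ i ∈ t, a i q) := by
  classical
  induction t using Finset.induction_on with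
  | empty =>
    simpa using const hc hs (Ψ := Ψ) (C := 0) 0 (by simp)
  | insert i t hi ih =>
    simp only [Finset.sum_insert hi, Finset.card_insert_of_notMem hi]
    have h1 := add hc (hA i (Finset.mem_insert_self i t))
      (ih fun j hj => hA j (Finset.mem_insert_of_mem hj))
    push_cast
    have e : (C + t.card * C) = ((t.card : ℝ) + 1) * C := by ring
    rwa [e] at h1

theorem prod (hc : Cal E μ) (hC : 0 ≤ C) (hs : ∀ p, 0 ≤ s p) {ι : Type} (t : Finset ι)
    {a : ι → M → ℝ} (hA : ∀ i ∈ t, Gd E Ψ s C (a i)) :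
    Gd E Ψ s ((2 * C) ^ t.card) (fun q => ∏ i ∈ t, a i q) := by
  classical
  induction t using Finset.induction_on with
  | empty =>
    simpa using const hc hs (Ψ := Ψ) (C := 1) 1 (by simp)
  | insert i t hi ih =>
    simp only [Finset.prod_insert hi, Finset.card_insert_of_notMem hi]
    have h1 := mul hc hC (by positivity) hs (hA i (Finset.mem_insert_self i t))
      (ih fun j hj => hA j (Finset.mem_insert_of_mem hj))
    rw [pow_succ']
    exact h1

theorem det (hc : Cal E μ) (hC : 1 ≤ C) (hs : ∀ p, 0 ≤ s p) {m : ℕ}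
    {a : M → Matrix (Fin m) (Fin m) ℝ} (hA : ∀ i j, Gd E Ψ s C (fun q => a q i j)) :
    Gd E Ψ s (m.factorial * (2 * (2 * C) ^ m)) (fun q => (a q).det) := by
  have h1 : ∀ q, (a q).det = ∑ σ : Equiv.Perm (Fin m), ((Equiv.Perm.sign σ : ℤ) : ℝ) *
      ∏ i, a q (σ i) i := fun q => Matrix.det_apply' _
  simp only [h1]
  have h2 : ∀ σ ∈ (Finset.univ : Finset (Equiv.Perm (Fin m))),
      Gd E Ψ s (2 * (2 * C) ^ m) (fun q => ((Equiv.Perm.sign σ : ℤ) : ℝ) * ∏ i, a q (σ i) i) := by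
    intro σ _
    have h3 := prod hc (by linarith) hs Finset.univ (a := fun i q => a q (σ i) i)
      (fun i _ => hA (σ i) i)
    rw [Finset.card_univ, Fintype.card_fin] at h3
    have h4 := mul hc zero_le_one (by positivity) hs
      (const hc hs (Ψ := Ψ) (C := 1) ((Equiv.Perm.sign σ : ℤ) : ℝ) (by
        rcases Int.units_eq_one_or (Equiv.Perm.sign σ) with h | h <;> rw [h] <;> simp)) h3
    rw [mul_one] at h4
    exact h4
  have h3 := sum hc hs Finset.univ h2
  rwa [Finset.card_univ, Fintype.card_perm, Fintype.card_fin] at h3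

theorem adj (hc : Cal E μ) (hC : 1 ≤ C) (hs : ∀ p, 0 ≤ s p) {m : ℕ}
    {a : M → Matrix (Fin m) (Fin m) ℝ} (hA : ∀ i j, Gd E Ψ s C (fun q => a q i j)) (i j : Fin m) :
    Gd E Ψ s (m.factorial * (2 * (2 * C) ^ m)) (fun q => (a q).adjugate i j) := by
  simp only [Matrix.adjugate_apply]
  refine det hc hC hs fun k l => ?_
  by_cases hk : k = j
  · subst hk
    simp only [Matrix.updateRow_self]
    refine const hc hs _ ?_
    rw [Pi.single_apply]
    split_ifs
    · simpa using hC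
    · simp only [abs_zero]; linarith
  · simp only [Matrix.updateRow_ne hk]
    exact hA k l

end Gd

end Vale.Agent.P210.R2.H755
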