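import Vale.Agent.P210.R2.H755.ScxA

/-!
# Integration by parts against multipliers
-/

open scoped Manifold ContDiff Topology Bundle ENNReal NNReal
open Set Metric Filter Bundle IsManifold MeasureTheory Manifold Asymptotics

set_option maxSynthPendingDepth 3
set_option linter.unusedSectionVars false

noncomputable section

namespace Vale.Agent.P210.R2.H755

open Vale.Agent.P210.R2.H53

variable {E : Type} [NormedAddCommGroup E] [NormedSpace ℝ E] [FiniteDimensional ℝ E]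
  [MeasurableSpace E] [BorelSpace E]
  {M : Type} [MetricSpace M] [ChartedSpace E M]
  [RiemannianBundle (fun x : M => TangentSpace 𝓘(ℝ, E) x)]
  [MeasurableSpace M] [BorelSpace M] [ProperSpace M]

variable {μ : Measure M} {Ψ s A B f w : M → ℝ} {C D L W : ℝ}

omit [FiniteDimensional ℝ E] [MeasurableSpace E] [BorelSpace E] [MeasurableSpace M] [BorelSpace M]
  [ProperSpace M] in
theorem gam_zero_min (h0 : ∀ p, 0 ≤ Ψ p) {p : M} (hp : Ψ p = 0) (f : M → ℝ) :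
    Gam E f Ψ p = 0 := by
  have h1 : IsLocalMin (Ψ ∘ (chartAt E p).symm) (chartAt E p p) := by
    refine Filter.Eventually.of_forall fun y => ?_
    simp only [Function.comp_apply, (chartAt E p).left_inv (mem_chart_source E p), hp]
    exact h0 _
  simp only [Gam, gamG, gradG]
  rw [h1.fderiv_eq_zero]
  simp

/-- the function in the final bound -/
def Bd (E : Type) [NormedAddCommGroup E] [NormedSpace ℝ E]
    {M : Type} [MetricSpace M] [ChartedSpace E M]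
    [RiemannianBundle (fun x : M => TangentSpace 𝓘(ℝ, E) x)] (Ψ s : M → ℝ) (p : M) : ℝ :=
  Ψ p * s p ^ 2 + √(Gam E Ψ Ψ p) * s p

theorem int_bd (hc : Cal E μ) (hΨ : LC Ψ) (hs : Continuous s) : Integrable (Bd E Ψ s) μ := by
  have h1 : Integrable (fun p => Ψ p * s p ^ 2) μ :=
    hc.int_cont (hΨ.cont.mul (hs.pow 2)) (hΨ.2.mul_right)
  have h2 : Integrable (fun p => √(Gam E Ψ Ψ p) * s p) μ := by
    have hK : IsCompact (tsupport Ψ) := hΨ.2
    obtain ⟨A, hA⟩ := hK.exists_bound_of_continuousOn hs.continuousOn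
    obtain ⟨D, hD0, hD⟩ := hc.bound hΨ.ll hK
    refine hc.int_of ((hc.gam_meas hΨ.ll hΨ.ll).sqrt.mul hs.measurable).aestronglyMeasurable hK
      (C := D * A) (fun p hp => ?_) fun p hp => ?_
    · rw [abs_mul, abs_of_nonneg (Real.sqrt_nonneg _)]
      have h3 : √(Gam E Ψ Ψ p) ≤ D := (Real.sqrt_le_left hD0).2 (hD p hp)
      exact mul_le_mul h3 (by simpa using hA p hp) (abs_nonneg _) hD0
    · rw [hc.gam_zero_of_notMem Ψ hp, Real.sqrt_zero, zero_mul]
  exact h1.add h2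

theorem lap_cont (hL : ∀ u : M → ℝ, TF E u → TF E (Lap E u)) (hf : TF E f) :
    Continuous (Lap E f) := (hL f hf).1.continuous

theorem tf_lc (hc : Cal E μ) (hf : TF E f) : LC f := lc_of_ll (hc.tfll f hf) hf.2

omit [FiniteDimensional ℝ E] [MeasurableSpace E] [BorelSpace E] [MeasurableSpace M] [BorelSpace M]
  [ProperSpace M] [RiemannianBundle (fun x : M => TangentSpace 𝓘(ℝ, E) x)] in
theorem tf_md (hf : TF E f) (p : M) : MDifferentiableAt 𝓘(ℝ, E) 𝓘(ℝ, ℝ) f p :=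
  (hf.1 p).mdifferentiableAt (by simp)

/-- `∫ Ψ A ⟨∇f, ∇w⟩` -/
theorem int1 (hc : Cal E μ) (hL : ∀ u : M → ℝ, TF E u → TF E (Lap E u)) (hΨ : LC Ψ)
    (hΨ0 : ∀ p, 0 ≤ Ψ p) (hs : Continuous s) (hs0 : ∀ p, 0 ≤ s p) (hA : Gd E Ψ s C A)
    (hf : TF E f) (hw : TF E w) (h4 : ∀ p, Ψ p ≠ 0 → Gam E f f p ≤ 4)
    (hLf : ∀ p, Ψ p ≠ 0 → |Lap E f p| ≤ L * s p) (hW : ∀ p, Ψ p ≠ 0 → |w p| ≤ W * s p)
    (hC : 0 ≤ C) (hL0 : 0 ≤ L) (hW0 : 0 ≤ W) :
    Integrable (fun p => Ψ p * (A p * Gam E f w p)) μ ∧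
    |∫ p, Ψ p * (A p * Gam E f w p) ∂μ| ≤ C * W * (L + 2) * ∫ p, Bd E Ψ s p ∂μ := by
  have hwl := tf_lc hc hw
  have hAw : LC (fun q => A q * w q) := LC.mul_left hA.ll hwl
  have hv : LC (fun q => Ψ q * (A q * w q)) := LC.mul_left hΨ.ll hAw
  have hAwd : ∀ p, MDifferentiableAt 𝓘(ℝ, E) 𝓘(ℝ, ℝ) (fun q => A q * w q) p :=
    fun p => hc.md_mul (hA.md p) (tf_md hw p)
  have iR : Integrable (fun p => Ψ p * (A p * Gam E f w p)) μ := by
    have := hc.int_mul_gam (a := fun p => Ψ p * A p) (hΨ.cont.mul hA.ll.continuous)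
      (hc.tfll f hf) hwl
    refine this.congr (Eventually.of_forall fun p => ?_)
    simp only [mul_assoc]
  have iT : Integrable (Gam E f (fun q => Ψ q * (A q * w q))) μ := hc.int_gam (hc.tfll f hf) hv
  have iL : Integrable (fun p => Ψ p * (A p * w p) * Lap E f p) μ :=
    hc.int_cont (hv.cont.mul (lap_cont hL hf)) hv.2.mul_right
  have e1 := hc.ibp f _ hf hv
  have e2 : ∫ p, Ψ p * (A p * Gam E f w p) ∂μ =
      ∫ p, (Ψ p * (A p * Gam E f w p) - Gam E f (fun q => Ψ q * (A q * w q)) p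
        - Ψ p * (A p * w p) * Lap E f p) ∂μ := by
    have h1 : ∫ p, (Ψ p * (A p * Gam E f w p) - Gam E f (fun q => Ψ q * (A q * w q)) p) ∂μ =
        ∫ p, Ψ p * (A p * Gam E f w p) ∂μ - ∫ p, Gam E f (fun q => Ψ q * (A q * w q)) p ∂μ :=
      integral_sub iR iT
    have h2 : ∫ p, (Ψ p * (A p * Gam E f w p) - Gam E f (fun q => Ψ q * (A q * w q)) p
        - Ψ p * (A p * w p) * Lap E f p) ∂μ =
        ∫ p, (Ψ p * (A p * Gam E f w p) - Gam E f (fun q => Ψ q * (A q * w q)) p) ∂μ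
        - ∫ p, Ψ p * (A p * w p) * Lap E f p ∂μ := integral_sub (iR.sub iT) iL
    rw [h2, h1, e1]
    ring
  refine ⟨iR, ?_⟩
  rw [e2, ← integral_const_mul, ← Real.norm_eq_abs]
  refine norm_integral_le_of_norm_le ((int_bd hc hΨ hs).const_mul _) ?_
  filter_upwards [hc.diff Ψ hΨ.ll] with p hp
  rw [hc.mul' f Ψ _ p hp (hAwd p), hc.mul' f A w p (hA.md p) (tf_md hw p), Real.norm_eq_abs]
  by_cases h0 : Ψ p = 0
  · rw [gam_zero_min hΨ0 h0, h0]
    simp only [Bd, h0]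
    have : 0 ≤ C * W * (L + 2) * (0 * s p ^ 2 + √(Gam E Ψ Ψ p) * s p) := by
      have := hs0 p
      positivity
    simpa using this
  have hA1 := hA.bd p h0
  have hA2 := hA.gr p h0
  have hf2 : √(Gam E f f p) ≤ 2 := by
    rw [Real.sqrt_le_left (by norm_num)]
    have := h4 p h0
    linarith
  have hl := hLf p h0
  have hw1 := hW p h0
  have g1 := hc.abs_le f A p
  have g2 := hc.abs_le f Ψ p
  have hsp := hs0 p
  have hΨp := hΨ0 p
  set P := √(Gam E Ψ Ψ p)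
  have hP : 0 ≤ P := Real.sqrt_nonneg _
  have e3 : Ψ p * (A p * Gam E f w p) - (Ψ p * (A p * Gam E f w p + w p * Gam E f A p)
      + A p * w p * Gam E f Ψ p) - Ψ p * (A p * w p) * Lap E f p =
      -(Ψ p * (w p * Gam E f A p) + A p * w p * Gam E f Ψ p + Ψ p * (A p * w p) * Lap E f p) := by
    ring
  rw [e3, abs_neg]
  have k1 : |Ψ p * (w p * Gam E f A p)| ≤ Ψ p * ((W * s p) * (2 * (C * s p))) := by
    rw [abs_mul, abs_of_nonneg hΨp, abs_mul]
    refine mul_le_mul_of_nonneg_left (mul_le_mul hw1 (g1.trans ?_) (abs_nonneg _)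
      (by positivity)) hΨp
    exact mul_le_mul hf2 hA2 (Real.sqrt_nonneg _) (by norm_num)
  have k2 : |A p * w p * Gam E f Ψ p| ≤ C * (W * s p) * (2 * P) := by
    rw [abs_mul, abs_mul]
    refine mul_le_mul (mul_le_mul hA1 hw1 (abs_nonneg _) hC) (g2.trans ?_) (abs_nonneg _)
      (by positivity)
    exact mul_le_mul_of_nonneg_right hf2 hP
  have k3 : |Ψ p * (A p * w p) * Lap E f p| ≤ Ψ p * (C * (W * s p)) * (L * s p) := by
    rw [abs_mul, abs_mul, abs_of_nonneg hΨp, abs_mul]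
    refine mul_le_mul (mul_le_mul_of_nonneg_left (mul_le_mul hA1 hw1 (abs_nonneg _) hC) hΨp) hl
      (abs_nonneg _) (by positivity)
  have k4 := abs_add_le (Ψ p * (w p * Gam E f A p) + A p * w p * Gam E f Ψ p)
    (Ψ p * (A p * w p) * Lap E f p)
  have k5 := abs_add_le (Ψ p * (w p * Gam E f A p)) (A p * w p * Gam E f Ψ p)
  have k6 : 0 ≤ C * W * L * (P * s p) := by positivity
  simp only [Bd]
  change _ ≤ C * W * (L + 2) * (Ψ p * s p ^ 2 + P * s p)
  linarith only [k1, k2, k3, k4, k5, k6]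

/-- `∫ Ψ A Δf` -/
theorem int2 (hc : Cal E μ) (hL : ∀ u : M → ℝ, TF E u → TF E (Lap E u)) (hΨ : LC Ψ)
    (hΨ0 : ∀ p, 0 ≤ Ψ p) (hs : Continuous s) (hs0 : ∀ p, 0 ≤ s p) (hA : Gd E Ψ s C A)
    (hf : TF E f) (hW : ∀ p, Ψ p ≠ 0 → √(Gam E f f p) ≤ W * s p) (hs1 : ∀ p, Ψ p ≠ 0 → True)
    (hC : 0 ≤ C) (hW0 : 0 ≤ W) :
    Integrable (fun p => Ψ p * (A p * Lap E f p)) μ ∧
    |∫ p, Ψ p * (A p * Lap E f p) ∂μ| ≤ C * W * ∫ p, Bd E Ψ s p ∂μ := by
  have hv : LC (fun q => Ψ q * A q) := LC.mul_right hΨ hA.ll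
  have iL : Integrable (fun p => Ψ p * (A p * Lap E f p)) μ :=
    hc.int_cont (hΨ.cont.mul (hA.ll.continuous.mul (lap_cont hL hf))) hΨ.2.mul_right
  refine ⟨iL, ?_⟩
  have e1 := hc.ibp f _ hf hv
  have e2 : ∫ p, Ψ p * (A p * Lap E f p) ∂μ = -∫ p, Gam E f (fun q => Ψ q * A q) p ∂μ := by
    rw [e1, neg_neg]
    simp only [mul_assoc]
  rw [e2, abs_neg, ← integral_const_mul, ← Real.norm_eq_abs]
  refine norm_integral_le_of_norm_le ((int_bd hc hΨ hs).const_mul _) ?_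
  filter_upwards [hc.diff Ψ hΨ.ll] with p hp
  rw [hc.mul' f Ψ A p hp (hA.md p), Real.norm_eq_abs]
  by_cases h0 : Ψ p = 0
  · rw [gam_zero_min hΨ0 h0, h0]
    simp only [Bd, h0]
    have : 0 ≤ C * W * (0 * s p ^ 2 + √(Gam E Ψ Ψ p) * s p) := by
      have := hs0 p
      positivity
    simpa using this
  have hA1 := hA.bd p h0
  have hA2 := hA.gr p h0
  have hf2 := hW p h0
  have g1 := hc.abs_le f A p
  have g2 := hc.abs_le f Ψ p
  have hsp := hs0 p
  have hΨp := hΨ0 p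
  set P := √(Gam E Ψ Ψ p)
  have hP : 0 ≤ P := Real.sqrt_nonneg _
  have k1 : |Ψ p * Gam E f A p| ≤ Ψ p * ((W * s p) * (C * s p)) := by
    rw [abs_mul, abs_of_nonneg hΨp]
    refine mul_le_mul_of_nonneg_left (g1.trans ?_) hΨp
    exact mul_le_mul hf2 hA2 (Real.sqrt_nonneg _) (by positivity)
  have k2 : |A p * Gam E f Ψ p| ≤ C * ((W * s p) * P) := by
    rw [abs_mul]
    refine mul_le_mul hA1 (g2.trans ?_) (abs_nonneg _) hC
    exact mul_le_mul_of_nonneg_right hf2 hP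
  have k3 := abs_add_le (Ψ p * Gam E f A p) (A p * Gam E f Ψ p)
  simp only [Bd]
  change _ ≤ C * W * (Ψ p * s p ^ 2 + P * s p)
  linarith only [k1, k2, k3]

end Vale.Agent.P210.R2.H755
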