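import Vale.Agent.P210.R2.H755.ScxZ
import Vale.Agent.P210.R2.H973.Mf2

/-!
# The scalar curvature inequality
-/

open scoped Manifold ContDiff Topology Bundle ENNReal NNReal
open Set Metric Filter Bundle IsManifold MeasureTheory Manifold Asymptotics

set_option maxSynthPendingDepth 3
set_option linter.unusedSectionVars false

noncomputable section

namespace Vale.Agent.P210.R2.H755

open Vale.Agent.P210.R2.H53
open Vale.Agent.P210.R2.H973 (cP cR HH SS Gr contDiff_cP contDiff_cR bound_fam det_lower pc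
  Gam_comp_Gr_le Gam_Gr HH_le Lap_le Gr_le SS_nonneg)

variable {E : Type} [NormedAddCommGroup E] [NormedSpace ℝ E] [FiniteDimensional ℝ E]
  [MeasurableSpace E] [BorelSpace E]
  {M : Type} [MetricSpace M] [ChartedSpace E M]
  [RiemannianBundle (fun x : M => TangentSpace 𝓘(ℝ, E) x)]
  [IsManifold 𝓘(ℝ, E) ∞ M]
  [IsContMDiffRiemannianBundle 𝓘(ℝ, E) ∞ E (fun x : M => TangentSpace 𝓘(ℝ, E) x)]
  [IsRiemannianManifold 𝓘(ℝ, E) M] [MeasurableSpace M] [BorelSpace M] [ProperSpace M]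
  {m : ℕ}

theorem tf_add {u v : M → ℝ} (hu : TF E u) (hv : TF E v) : TF E (fun q => u q + v q) :=
  ⟨hu.1.add hv.1, hu.2.add hv.2⟩

theorem tf_smul (c : ℝ) {u : M → ℝ} (hu : TF E u) : TF E (fun q => c * u q) :=
  ⟨contMDiff_const.mul hu.1, hu.2.mul_left⟩

theorem tf_HH (hG : ∀ u v : M → ℝ, TF E u → TF E v → TF E (Gam E u v)) {f g h : M → ℝ}
    (hf : TF E f) (hg : TF E g) (hh : TF E h) : TF E (HH E f g h) := by
  have h1 := hG g _ hg (hG f h hf hh)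
  have h2 := hG h _ hh (hG f g hf hg)
  have h3 := hG f _ hf (hG g h hg hh)
  have h4 := tf_smul (1 / 2) (tf_add (tf_add h1 h2) (tf_smul (-1) h3))
  have e : HH E f g h = fun q => 1 / 2 * (Gam E g (Gam E f h) q + Gam E h (Gam E f g) q +
      -1 * Gam E f (Gam E g h) q) := by
    funext q
    simp only [HH]
    ring
  rw [e]
  exact h4

theorem le_of_mul_self {g C : ℝ} (hg : 0 ≤ g) (hC : 0 ≤ C) (h : g ^ 2 ≤ C * g) : g ≤ C := by
  rcases hg.eq_or_lt with h0 | h0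
  · rw [← h0]; exact hC
  · nlinarith only [h, h0]

theorem contMDiff_Gr {u : Fin m → M → ℝ} (hu : ∀ i, ContMDiff 𝓘(ℝ, E) 𝓘(ℝ, ℝ) ∞ (u i)) :
    ContMDiff 𝓘(ℝ, E) 𝓘(ℝ, Fin m → Fin m → ℝ) ∞ (Gr E u) := by
  rw [contMDiff_pi_space]
  intro i
  rw [contMDiff_pi_space]
  intro j
  exact contMDiff_Gam (hu i) (hu j)

/-- functions of the Gram matrix are multipliers -/
theorem gd_comp {μ : Measure M} (hc : Cal E μ) {u : Fin m → M → ℝ}
    (hu : ∀ i, ContMDiff 𝓘(ℝ, E) 𝓘(ℝ, ℝ) ∞ (u i)) {Ψ : M → ℝ}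
    (h4 : ∀ p, Ψ p ≠ 0 → ∀ i, Gam E (u i) (u i) p ≤ 4)
    {c : (Fin m → Fin m → ℝ) → ℝ} (hcs : ContDiff ℝ ∞ c) {C : ℝ} (hC0 : 0 ≤ C)
    (hC : ∀ X : Fin m → Fin m → ℝ, (∀ i j, |X i j| ≤ 4) → |c X| ≤ C ∧ ‖fderiv ℝ c X‖ ≤ C) :
    Gd E Ψ (fun p => √(SS E u p)) (4 * C) (fun p => c (Gr E u p)) := by
  have hsm : ContMDiff 𝓘(ℝ, E) 𝓘(ℝ, ℝ) ∞ (fun p => c (Gr E u p)) :=
    hcs.contMDiff.comp (contMDiff_Gr hu)
  refine ⟨smooth_ll hc hsm, fun p => (hsm p).mdifferentiableAt (by simp), fun p hp => ?_,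
    fun p hp => ?_⟩
  · have h1 := (hC (Gr E u p) (Gr_le (h4 p hp))).1
    linarith
  · have h1 := Gam_comp_Gr_le hu (h4 p hp) hcs (hC (Gr E u p) (Gr_le (h4 p hp))).2
      (fun q => c (Gr E u q))
    refine le_of_mul_self (Real.sqrt_nonneg _) (by positivity) ?_
    rw [Real.sq_sqrt (hc.nonneg _ _)]
    refine (le_abs_self _).trans (h1.trans_eq ?_)
    ring

theorem core {μ : Measure M} (hc : Cal E μ)
    (hL : ∀ u : M → ℝ, TF E u → TF E (Lap E u))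
    (hG : ∀ u v : M → ℝ, TF E u → TF E v → TF E (Gam E u v))
    (hm : Module.finrank ℝ E = m + 1) {K : ℝ} (hK : 0 ≤ K) (hric : RicGE E M (-K))
    (hscal : ScalGE E M 1) {C : ℝ} (hC0 : 0 ≤ C)
    (hP : ∀ (j : Fin m) (X : Fin m → Fin m → ℝ), (∀ i j, |X i j| ≤ 4) →
      |cP j X| ≤ C ∧ ‖fderiv ℝ (cP j) X‖ ≤ C)
    (hR : ∀ (i l j k : Fin m) (X : Fin m → Fin m → ℝ), (∀ i j, |X i j| ≤ 4) →
      |cR i l j k X| ≤ C ∧ ‖fderiv ℝ (cR i l j k) X‖ ≤ C)
    {u : Fin m → M → ℝ} (hu : ∀ i, TF E (u i)) {Ψ : M → ℝ} (hΨ : LC Ψ) (hΨ0 : ∀ p, 0 ≤ Ψ p)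
    (h4 : ∀ p, Ψ p ≠ 0 → ∀ i, Gam E (u i) (u i) p ≤ 4) :
    Integrable (fun p => Ψ p * (Matrix.of (Gr E u p)).det ^ 2) μ ∧
    ∫ p, Ψ p * (Matrix.of (Gr E u p)).det ^ 2 ∂μ ≤
      (m * (8 * C + 4 * C * (m + 1) * (m + 3)) + m ^ 4 * (2 * (4 * C * 4 * (m + 3))) +
        (C + 16 * m ^ 4 * C)) * ∫ p, Bd E Ψ (fun p => √(SS E u p)) p ∂μ +
      4 * m * C * K * ∫ p, Ψ p ∂μ := by
  have hus : ∀ i, ContMDiff 𝓘(ℝ, E) 𝓘(ℝ, ℝ) ∞ (u i) := fun i => (hu i).1
  set s : M → ℝ := fun p => √(SS E u p) with hs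
  have hSc : Continuous (SS E u) := by
    refine continuous_finset_sum _ fun i _ => (contMDiff_HS (hus i) 0).continuous
  have hsc : Continuous s := Real.continuous_sqrt.comp hSc
  have hs0 : ∀ p, 0 ≤ s p := fun p => Real.sqrt_nonneg _
  have hs2 : ∀ p, s p ^ 2 = SS E u p := fun p => Real.sq_sqrt (SS_nonneg hus p)
  have hGP : ∀ j : Fin m, Gd E Ψ s (4 * C) (fun p => cP j (Gr E u p)) := fun j =>
    gd_comp hc hus h4 (contDiff_cP j) hC0 (hP j)
  have hGR : ∀ i l j k : Fin m, Gd E Ψ s (4 * C) (fun p => cR i l j k (Gr E u p)) :=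
    fun i l j k => gd_comp hc hus h4 (contDiff_cR i l j k) hC0 (hR i l j k)
  have h4C : 0 ≤ 4 * C := by positivity
  have hLap : ∀ i p, Ψ p ≠ 0 → |Lap E (u i) p| ≤ (m + 1) * s p := fun i p _ => Lap_le hm hus p i
  -- the terms
  have t1 : ∀ j : Fin m, Integrable (fun p => Ψ p * (cP j (Gr E u p) *
      Lap E (Gam E (u j) (u j)) p)) μ ∧
      |∫ p, Ψ p * (cP j (Gr E u p) * Lap E (Gam E (u j) (u j)) p) ∂μ| ≤
        4 * C * 4 * ∫ p, Bd E Ψ s p ∂μ := by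
    intro j
    refine int2 hc hL hΨ hΨ0 hsc hs0 (hGP j) (hG _ _ (hu j) (hu j)) (fun p hp => ?_)
      (fun _ _ => trivial) h4C (by norm_num)
    have h1 := Gam_Gr hus (h4 p hp) (Gam E (u j) (u j)) j j
    refine le_of_mul_self (Real.sqrt_nonneg _) (by have := hs0 p; positivity) ?_
    rw [Real.sq_sqrt (hc.nonneg _ _)]
    exact (le_abs_self _).trans h1
  have t2 : ∀ j : Fin m, Integrable (fun p => Ψ p * (cP j (Gr E u p) *
      Gam E (u j) (Lap E (u j)) p)) μ ∧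
      |∫ p, Ψ p * (cP j (Gr E u p) * Gam E (u j) (Lap E (u j)) p) ∂μ| ≤
        4 * C * (m + 1) * ((m + 1) + 2) * ∫ p, Bd E Ψ s p ∂μ := by
    intro j
    exact int1 hc hL hΨ hΨ0 hsc hs0 (hGP j) (hu j) (hL _ (hu j)) (fun p hp => h4 p hp j)
      (hLap j) (hLap j) h4C (by positivity) (by positivity)
  have t3 : ∀ i l j k q r : Fin m, Integrable (fun p => Ψ p * (cR i l j k (Gr E u p) *
      Gam E (u q) (HH E (u l) (u r) (u k)) p)) μ ∧
      |∫ p, Ψ p * (cR i l j k (Gr E u p) * Gam E (u q) (HH E (u l) (u r) (u k)) p) ∂μ| ≤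
        4 * C * 4 * ((m + 1) + 2) * ∫ p, Bd E Ψ s p ∂μ := by
    intro i l j k q r
    exact int1 hc hL hΨ hΨ0 hsc hs0 (hGR i l j k) (hu q) (tf_HH hG (hu l) (hu r) (hu k))
      (fun p hp => h4 p hp q) (hLap q) (fun p hp => HH_le hus (h4 p hp) l r k) h4C
      (by positivity) (by positivity)
  set B := ∫ p, Bd E Ψ s p ∂μ with hB
  have iD : Integrable (fun p => Ψ p * (Matrix.of (Gr E u p)).det ^ 2) μ := by
    refine hc.int_cont (hΨ.cont.mul (Continuous.pow ?_ 2)) hΨ.2.mul_right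
    exact (H973.contDiff_det.continuous).comp (contMDiff_Gr hus).continuous
  refine ⟨iD, ?_⟩
  have iΨ : Integrable Ψ μ := hc.int_cont hΨ.cont hΨ.2
  have iS : Integrable (fun p => Ψ p * SS E u p) μ := hc.int_cont (hΨ.cont.mul hSc) hΨ.2.mul_right
  have iB := int_bd hc hΨ hsc
  -- the pointwise inequality
  set F1 : M → ℝ := fun p => ∑ j, ((1 / 2) * (Ψ p * (cP j (Gr E u p) *
      Lap E (Gam E (u j) (u j)) p)) - Ψ p * (cP j (Gr E u p) * Gam E (u j) (Lap E (u j)) p))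
      with hF1
  set F2 : M → ℝ := fun p => ∑ i, ∑ l, ∑ j, ∑ k, (Ψ p * (cR i l j k (Gr E u p) *
      Gam E (u i) (HH E (u l) (u j) (u k)) p) - Ψ p * (cR i l j k (Gr E u p) *
      Gam E (u j) (HH E (u l) (u i) (u k)) p)) with hF2
  have hpt : ∀ p, Ψ p * (Matrix.of (Gr E u p)).det ^ 2 ≤
      F1 p + F2 p + (C + 16 * m ^ 4 * C) * (Ψ p * SS E u p) + 4 * m * C * K * Ψ p := by
    intro p
    by_cases h0 : Ψ p = 0
    · simp only [hF1, hF2, h0]
      simp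
    have h1 := pc hm hK hric hscal hus (fun j X hX => (hP j X hX).1)
      (fun i l j k X hX => (hR i l j k X hX).1) (p := p) (Gr_le (h4 p h0))
    have h2 := mul_le_mul_of_nonneg_left h1 (hΨ0 p)
    refine h2.trans_eq ?_
    have e1 : F1 p = Ψ p * ∑ j, cP j (Gr E u p) * ((1 / 2) * Lap E (Gam E (u j) (u j)) p -
        Gam E (u j) (Lap E (u j)) p) := by
      rw [hF1, Finset.mul_sum]
      exact Finset.sum_congr rfl fun j _ => by ring
    have e2 : F2 p = Ψ p * ∑ i, ∑ l, ∑ j, ∑ k, cR i l j k (Gr E u p) *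
        (Gam E (u i) (HH E (u l) (u j) (u k)) p - Gam E (u j) (HH E (u l) (u i) (u k)) p) := by
      rw [hF2]
      simp only [Finset.mul_sum]
      exact Finset.sum_congr rfl fun i _ => Finset.sum_congr rfl fun l _ =>
        Finset.sum_congr rfl fun j _ => Finset.sum_congr rfl fun k _ => by ring
    rw [e1, e2]
    ring
  have j1 : ∀ j : Fin m, Integrable (fun p => (1 / 2) * (Ψ p * (cP j (Gr E u p) *
      Lap E (Gam E (u j) (u j)) p)) - Ψ p * (cP j (Gr E u p) * Gam E (u j) (Lap E (u j)) p)) μ :=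
    fun j => ((t1 j).1.const_mul _).sub (t2 j).1
  have j2 : ∀ i l j k : Fin m, Integrable (fun p => Ψ p * (cR i l j k (Gr E u p) *
      Gam E (u i) (HH E (u l) (u j) (u k)) p) - Ψ p * (cR i l j k (Gr E u p) *
      Gam E (u j) (HH E (u l) (u i) (u k)) p)) μ := fun i l j k =>
    (t3 i l j k i j).1.sub (t3 i l j k j i).1
  have j2a : ∀ i l j : Fin m, Integrable (fun p => ∑ k, (Ψ p * (cR i l j k (Gr E u p) *
      Gam E (u i) (HH E (u l) (u j) (u k)) p) - Ψ p * (cR i l j k (Gr E u p) *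
      Gam E (u j) (HH E (u l) (u i) (u k)) p))) μ := fun i l j =>
    integrable_finset_sum _ fun k _ => j2 i l j k
  have j2b : ∀ i l : Fin m, Integrable (fun p => ∑ j, ∑ k, (Ψ p * (cR i l j k (Gr E u p) *
      Gam E (u i) (HH E (u l) (u j) (u k)) p) - Ψ p * (cR i l j k (Gr E u p) *
      Gam E (u j) (HH E (u l) (u i) (u k)) p))) μ := fun i l =>
    integrable_finset_sum _ fun j _ => j2a i l j
  have j2c : ∀ i : Fin m, Integrable (fun p => ∑ l, ∑ j, ∑ k, (Ψ p * (cR i l j k (Gr E u p) *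
      Gam E (u i) (HH E (u l) (u j) (u k)) p) - Ψ p * (cR i l j k (Gr E u p) *
      Gam E (u j) (HH E (u l) (u i) (u k)) p))) μ := fun i =>
    integrable_finset_sum _ fun l _ => j2b i l
  have iF1 : Integrable F1 μ := integrable_finset_sum _ fun j _ => j1 j
  have iF2 : Integrable F2 μ := integrable_finset_sum _ fun i _ => j2c i
  have b1 : ∫ p, F1 p ∂μ ≤ m * ((8 * C + 4 * C * (m + 1) * (m + 3)) * B) := by
    rw [hF1, integral_finset_sum _ fun j _ => j1 j]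
    have : ∀ j ∈ (Finset.univ : Finset (Fin m)), ∫ p, ((1 / 2) * (Ψ p * (cP j (Gr E u p) *
      Lap E (Gam E (u j) (u j)) p)) - Ψ p * (cP j (Gr E u p) *
      Gam E (u j) (Lap E (u j)) p)) ∂μ ≤ (8 * C + 4 * C * (m + 1) * (m + 3)) * B := by
      intro j _
      rw [integral_sub ((t1 j).1.const_mul _) (t2 j).1, integral_const_mul]
      have h1 := abs_le.1 (t1 j).2
      have h2 := abs_le.1 (t2 j).2
      linarith only [h1.2, h2.1]
    refine (Finset.sum_le_sum this).trans_eq ?_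
    rw [Finset.sum_const, Finset.card_univ, Fintype.card_fin, nsmul_eq_mul]
  have b2 : ∫ p, F2 p ∂μ ≤ m ^ 4 * ((2 * (4 * C * 4 * (m + 3))) * B) := by
    have k1 : ∀ i l j k : Fin m, ∫ p, (Ψ p * (cR i l j k (Gr E u p) *
      Gam E (u i) (HH E (u l) (u j) (u k)) p) - Ψ p * (cR i l j k (Gr E u p) *
      Gam E (u j) (HH E (u l) (u i) (u k)) p)) ∂μ ≤ (2 * (4 * C * 4 * (m + 3))) * B := by
      intro i l j k
      rw [integral_sub (t3 i l j k i j).1 (t3 i l j k j i).1]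
      have h1 := abs_le.1 (t3 i l j k i j).2
      have h2 := abs_le.1 (t3 i l j k j i).2
      linarith only [h1.2, h2.1]
    have k2 : ∫ p, F2 p ∂μ = ∑ i, ∑ l, ∑ j, ∑ k, ∫ p, (Ψ p * (cR i l j k (Gr E u p) *
      Gam E (u i) (HH E (u l) (u j) (u k)) p) - Ψ p * (cR i l j k (Gr E u p) *
      Gam E (u j) (HH E (u l) (u i) (u k)) p)) ∂μ := by
      rw [hF2, integral_finset_sum _ fun i _ => j2c i]
      refine Finset.sum_congr rfl fun i _ => ?_
      rw [integral_finset_sum _ fun l _ => j2b i l]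
      refine Finset.sum_congr rfl fun l _ => ?_
      rw [integral_finset_sum _ fun j _ => j2a i l j]
      refine Finset.sum_congr rfl fun j _ => ?_
      rw [integral_finset_sum _ fun k _ => j2 i l j k]
    rw [k2]
    refine (Finset.sum_le_sum fun i _ => Finset.sum_le_sum fun l _ =>
      Finset.sum_le_sum fun j _ => Finset.sum_le_sum fun k _ => k1 i l j k).trans_eq ?_
    simp only [Finset.sum_const, Finset.card_univ, Fintype.card_fin, nsmul_eq_mul]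
    ring
  have b3 : ∫ p, Ψ p * SS E u p ∂μ ≤ B := by
    refine integral_mono iS iB fun p => ?_
    simp only [Bd, hs2]
    have := mul_nonneg (Real.sqrt_nonneg (Gam E Ψ Ψ p)) (hs0 p)
    linarith only [this]
  have b4 : ∫ p, Ψ p * (Matrix.of (Gr E u p)).det ^ 2 ∂μ ≤
      ∫ p, F1 p ∂μ + ∫ p, F2 p ∂μ + (C + 16 * m ^ 4 * C) * ∫ p, Ψ p * SS E u p ∂μ +
        4 * m * C * K * ∫ p, Ψ p ∂μ := by
    have q1 : Integrable (fun p => F1 p + F2 p) μ := iF1.add iF2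
    have q2 : Integrable (fun p => (C + 16 * m ^ 4 * C) * (Ψ p * SS E u p)) μ :=
      iS.const_mul _
    have q3 : Integrable (fun p => F1 p + F2 p + (C + 16 * m ^ 4 * C) * (Ψ p * SS E u p)) μ :=
      q1.add q2
    have q4 : Integrable (fun p => 4 * m * C * K * Ψ p) μ := iΨ.const_mul _
    have q5 : Integrable (fun p => F1 p + F2 p + (C + 16 * m ^ 4 * C) * (Ψ p * SS E u p) +
      4 * m * C * K * Ψ p) μ := q3.add q4
    have h1 := integral_mono iD q5 hpt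
    have e1 : ∫ p, (F1 p + F2 p + (C + 16 * m ^ 4 * C) * (Ψ p * SS E u p) +
        4 * m * C * K * Ψ p) ∂μ = ∫ p, (F1 p + F2 p + (C + 16 * m ^ 4 * C) *
          (Ψ p * SS E u p)) ∂μ + ∫ p, 4 * m * C * K * Ψ p ∂μ := integral_add q3 q4
    have e2 : ∫ p, (F1 p + F2 p + (C + 16 * m ^ 4 * C) * (Ψ p * SS E u p)) ∂μ =
        ∫ p, (F1 p + F2 p) ∂μ + ∫ p, (C + 16 * m ^ 4 * C) * (Ψ p * SS E u p) ∂μ :=
      integral_add q1 q2
    have e3 : ∫ p, (F1 p + F2 p) ∂μ = ∫ p, F1 p ∂μ + ∫ p, F2 p ∂μ := integral_add iF1 iF2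
    rw [e1, e2, e3, integral_const_mul, integral_const_mul] at h1
    exact h1
  have hcoef : 0 ≤ C + 16 * m ^ 4 * C := by positivity
  have b5 := mul_le_mul_of_nonneg_left b3 hcoef
  refine b4.trans ?_
  refine (add_le_add (add_le_add (add_le_add b1 b2) b5) le_rfl).trans_eq ?_
  ring

/-- SCX -/
theorem scx (hA : Stmt.CALA) (hB : Stmt.CALB) (hCC : Stmt.CALC) (hD : Stmt.CALD) :
    Stmt.SCX := by
  intro n hn
  obtain ⟨m, rfl⟩ : ∃ m, n = m + 1 := ⟨n - 1, by omega⟩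
  obtain ⟨C1, hC1, hP⟩ := bound_fam (c := fun j : Fin m => cP j) contDiff_cP
  obtain ⟨C2, hC2, hR⟩ := bound_fam (c := fun x : Fin m × Fin m × Fin m × Fin m =>
    cR x.1 x.2.1 x.2.2.1 x.2.2.2) (fun x => contDiff_cR _ _ _ _)
  obtain ⟨c, hc0, hdet⟩ := det_lower m
  set C := max C1 C2 with hCdef
  have hC0 : 0 ≤ C := hC1.trans (le_max_left _ _)
  set N : ℝ := m * (8 * C + 4 * C * (m + 1) * (m + 3)) + m ^ 4 * (2 * (4 * C * 4 * (m + 3))) +
    (C + 16 * m ^ 4 * C) with hN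
  have hN0 : 0 ≤ N := by positivity
  refine ⟨max 1 ((N + 4 * m * C) / c), le_max_left _ _, ?_⟩
  intro E _ _ _ _ _ M _ _ _ _ _ _ _ _ _ hE hdim μ K hμ hK _ hric hscal
  have key : ∀ (u : Fin m → M → ℝ) (Ψ : M → ℝ),
    (∀ i, TF E (u i)) → LC Ψ → (∀ p, 0 ≤ Ψ p) → (∀ p, Ψ p ≠ 0 → ∀ i, Gam E (u i) (u i) p ≤ 4) →
    ∫ p in {p | ∀ i j, |Gam E (u i) (u j) p - (if i = j then 1 else 0)| ≤
        1 / (4 * ((m + 1 : ℕ) : ℝ))}, Ψ p ∂μ ≤
    max 1 ((N + 4 * m * C) / c) * ∫ p, (Ψ p * ∑ i, HS E 0 (u i) p +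
        √(Gam E Ψ Ψ p) * √(∑ i, HS E 0 (u i) p)) ∂μ
      + max 1 ((N + 4 * m * C) / c) * K * ∫ p, Ψ p ∂μ := by
    intro u Ψ hu hΨ hΨ0 h4
    have hc : Cal E μ := cal_of hA hB hD hE hμ
    obtain ⟨c1, c2, -⟩ := hCC E M hE
    obtain ⟨iD, hmain⟩ := core hc c2 c1 hdim hK hric hscal hC0
      (fun j X hX => ⟨(hP j X hX).1.trans (le_max_left _ _),
        (hP j X hX).2.trans (le_max_left _ _)⟩)
      (fun i l j k X hX => ⟨(hR (i, l, j, k) X hX).1.trans (le_max_right _ _),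
        (hR (i, l, j, k) X hX).2.trans (le_max_right _ _)⟩) hu hΨ hΨ0 h4
    have hus : ∀ i, ContMDiff 𝓘(ℝ, E) 𝓘(ℝ, ℝ) ∞ (u i) := fun i => (hu i).1
    have eB : ∫ p, Bd E Ψ (fun p => √(SS E u p)) p ∂μ = ∫ p, (Ψ p * ∑ i, HS E 0 (u i) p +
        √(Gam E Ψ Ψ p) * √(∑ i, HS E 0 (u i) p)) ∂μ := by
      refine integral_congr_ae (Eventually.of_forall fun p => ?_)
      simp only [Bd]
      rw [Real.sq_sqrt (SS_nonneg hus p)]
      rfl
    rw [eB] at hmain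
    set B := ∫ p, (Ψ p * ∑ i, HS E 0 (u i) p +
        √(Gam E Ψ Ψ p) * √(∑ i, HS E 0 (u i) p)) ∂μ with hBdef
    have hB0 : 0 ≤ B := integral_nonneg fun p => by
      have h1 := hΨ0 p
      have h2 : 0 ≤ ∑ i, HS E 0 (u i) p := SS_nonneg hus p
      positivity
    have hI0 : 0 ≤ ∫ p, Ψ p ∂μ := integral_nonneg hΨ0
    set S := {p | ∀ i j, |Gam E (u i) (u j) p - (if i = j then 1 else 0)| ≤
        1 / (4 * ((m + 1 : ℕ) : ℝ))} with hS
    have hSm : MeasurableSet S := by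
      refine IsClosed.measurableSet ?_
      rw [hS, Set.ofPred_forall]
      refine isClosed_iInter fun i => ?_
      rw [Set.ofPred_forall]
      refine isClosed_iInter fun j => ?_
      exact isClosed_le (((contMDiff_Gam (hus i) (hus j)).continuous.sub
        continuous_const).abs) continuous_const
    have iΨ : Integrable Ψ μ := hc.int_cont hΨ.cont hΨ.2
    have h1 : c * ∫ p in S, Ψ p ∂μ ≤ ∫ p, Ψ p * (Matrix.of (Gr E u p)).det ^ 2 ∂μ := by
      rw [← integral_const_mul]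
      calc ∫ p in S, c * Ψ p ∂μ ≤ ∫ p in S, Ψ p * (Matrix.of (Gr E u p)).det ^ 2 ∂μ := by
            refine setIntegral_mono_on (iΨ.const_mul c).integrableOn iD.integrableOn hSm
              fun p hp => ?_
            have h2 := hdet (Gr E u p) hp
            have h3 := mul_le_mul_of_nonneg_left h2 (hΨ0 p)
            linarith only [h3]
        _ ≤ _ := setIntegral_le_integral iD (Eventually.of_forall fun p =>
            mul_nonneg (hΨ0 p) (sq_nonneg _))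
    have h2 : c * ∫ p in S, Ψ p ∂μ ≤ (N + 4 * m * C) * (B + K * ∫ p, Ψ p ∂μ) := by
      refine (h1.trans hmain).trans ?_
      have h3 : 0 ≤ K * ∫ p, Ψ p ∂μ := mul_nonneg hK hI0
      have h5 : 0 ≤ (4 * m * C) * B := by positivity
      have h6 : 0 ≤ N * (K * ∫ p, Ψ p ∂μ) := mul_nonneg hN0 h3
      have e : 4 * m * C * K * ∫ p, Ψ p ∂μ = (4 * m * C) * (K * ∫ p, Ψ p ∂μ) := by ring
      rw [e]
      linarith only [h5, h6]
    have h3 : ∫ p in S, Ψ p ∂μ ≤ (N + 4 * m * C) / c * (B + K * ∫ p, Ψ p ∂μ) := by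
      rw [div_mul_eq_mul_div, le_div_iff₀ hc0]
      linarith only [h2]
    refine h3.trans ?_
    have h5 : 0 ≤ B + K * ∫ p, Ψ p ∂μ := by positivity
    refine (mul_le_mul_of_nonneg_right (le_max_right 1 _) h5).trans_eq ?_
    ring
  intro u Ψ
  exact key u Ψ

end Vale.Agent.P210.R2.H755
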